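import Vale.Agent.P032.H184.Hold
import Vale.Agent.P032.H448.HD
import Vale.Agent.P032.H623.NsC
import Vale.Agent.P032.H314.EvT
import Vale.Agent.P032.H259.TameWin

/-!
# P032: the end for windows with honest ends, from its parts

`endHD_of` : no windowed centre of order six with both ends honest, from the events (`K2`), the
bridge (`B`) and the end without swaps and conveyors (`E`).
-/

open Set Filter Topology Metric

noncomputable section

namespace Vale.Agent.P032.H617.EndHD

open Vale.Agent.P032.Six Vale.Agent.P032.Sweep Vale.Agent.P032.S5.H767 Vale.Agent.P032.S5.H122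
  Vale.Agent.P032.H429 Vale.Agent.P032.H158 Vale.Agent.P032.H728 Vale.Agent.P032.H448
  Vale.Agent.P032.H266 Vale.Agent.P032.H623 Vale.Agent.P032.H259

/-- no windowed centre of order six with both ends of the windows honest -/
def End6HD : Prop := ∀ (U : Fin 6 → Set ℂ) (T : ℂ → Set (Fin 6)) (z : ℂ) (L R : Fin 6 → ℝ),
  Irr U T → Mh259 U T → (∀ i, i ∈ T z) → WinData T z L R →
    (∀ i, L i ∈ HD U z i ∧ R i ∈ HD U z i) → False

/-- the bridge, for a list of events -/
def Bridge (evs : List H437.Ev) : Prop := ∀ s s' : St,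
  H728.StepC (fun _ => True) (fun _ _ => True) s s' → ¬ H184.Kld s.1 s'.1 →
    ¬ H314.KldE evs s.1 s'.1 → NsC s.1 s'.1

/-- the events of the list do not occur -/
def Kill2 (evs : List H437.Ev) : Prop := ∀ (U : Fin 6 → Set ℂ) (T : ℂ → Set (Fin 6)) (z : ℂ)
  (L R : Fin 6 → ℝ), Irr U T → Mh259 U T → (∀ i, i ∈ T z) → WinData T z L R →
    (∀ i, L i ∈ HD U z i ∧ R i ∈ HD U z i) →
    ∀ u, ∀ s ∈ LS T z L R u, ∀ s' ∈ RS T z L R u, ¬ H314.KldE evs s.1 s'.1

/-- the end without swaps and conveyors -/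
def EndNs : Prop := ∀ (U : Fin 6 → Set ℂ) (T : ℂ → Set (Fin 6)) (z : ℂ) (L R : Fin 6 → ℝ),
  Irr U T → WinData T z L R →
    (∀ u, ∀ s ∈ LS T z L R u, ∀ s' ∈ RS T z L R u, NsC s.1 s'.1) → False

theorem endHD_of {evs : List H437.Ev} (K2 : Kill2 evs) (B : Bridge evs) (E : EndNs) : End6HD := by
  intro U T z L R h hmin hz w hD
  refine E U T z L R h w fun u s hs s' hs' => ?_
  exact B s s' (stepC_hd h w (Sd := fun _ => True) (fun i _ => hD i)
    (fun _ _ _ _ _ => trivial) hs hs') (H184.kill_LSH h hmin hz w w.side hD u s hs s' hs')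
    (K2 U T z L R h hmin hz w hD u s hs s' hs')

end Vale.Agent.P032.H617.EndHD
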