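import Vale.Agent.P032.H617.WX

/-!
# P032: renaming the colours in the rule sets `LOK`, `WK`, `WX`

`g : Equiv.Perm (Fin 6)` : the atom of the colour `i` is replaced by the atom of the colour `g i`.
One certificate covers all renamings.
-/

open Set

noncomputable section

namespace Vale.Agent.P032.H617

open Vale.Agent.P032.H437

variable {K : ℕ} {TT : QK K → Fin 6 → Prop} {LT IN OUT : Fin K → Bool → QK K → Fin 6 → Fin 6 → Prop}
  {MM : QK K → Fin 6 → Fin 6 → Prop} {IC OC : Fin K → Fin 6 → Fin 6 → Prop} {at' : Fin 6 → ℕ}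

theorem ncard_prm (g : Equiv.Perm (Fin 6)) (p : Fin 6 → Prop) :
    {i | p (g i)}.ncard = {i | p i}.ncard := by
  have e : {i | p i} = g '' {i | p (g i)} := by
    ext i
    constructor
    · intro hi
      exact ⟨g.symm i, by simpa using hi, by simp⟩
    · rintro ⟨m, hm, rfl⟩
      exact hm
  rw [e, Set.ncard_image_of_injective _ g.injective]

theorem GEK_prm (g : Equiv.Perm (Fin 6)) (q : QK K) (n : ℕ) :
    GEK (fun q i => TT q (g i)) q n ↔ GEK TT q n := by
  unfold GEK
  rw [ncard_prm g (TT q)]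

theorem exists_prm (g : Equiv.Perm (Fin 6)) {p : Fin 6 → Prop} (h : ∃ i, p i) : ∃ i, p (g i) := by
  obtain ⟨i, hi⟩ := h
  exact ⟨g.symm i, by simpa using hi⟩

theorem exists_prm' (g : Equiv.Perm (Fin 6)) {p : Fin 6 → Prop} {a : Fin 6}
    (h : ∃ i, i ≠ g a ∧ p i) : ∃ i, i ≠ a ∧ p (g i) := by
  obtain ⟨i, h1, hi⟩ := h
  exact ⟨g.symm i, fun e => h1 (by rw [← e]; simp), by simpa using hi⟩

theorem exists_prm2 (g : Equiv.Perm (Fin 6)) {p : Fin 6 → Prop} {a b : Fin 6}
    (h : ∃ i, i ≠ g a ∧ i ≠ g b ∧ p i) : ∃ i, i ≠ a ∧ i ≠ b ∧ p (g i) := by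
  obtain ⟨i, h1, h2, hi⟩ := h
  exact ⟨g.symm i, fun e => h1 (by rw [← e]; simp), fun e => h2 (by rw [← e]; simp),
    by simpa using hi⟩

/-- **renaming of `LOK`** -/
theorem LOK.prm (h : LOK TT LT IN OUT MM) (g : Equiv.Perm (Fin 6)) :
    LOK (fun q i => TT q (g i)) (fun c s q j i => LT c s q j (g i))
      (fun c s q j i => IN c s q j (g i)) (fun c s q j i => OUT c s q j (g i))
      (fun q a b => MM q (g a) (g b)) where
  memb := fun hl => h.memb hl
  neI := fun c s q j => exists_prm g (h.neI c s q j)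
  neO := fun c s q j => exists_prm g (h.neO c s q j)
  IL := fun hl => h.IL hl
  OL := fun hl => h.OL hl
  LIO := fun hl => h.LIO hl
  pair := fun hl ht => exists_prm' g (h.pair hl ht)
  card := fun c s q j => by rw [ncard_prm g (LT c s q j)]; exact h.card c s q j
  two := by
    intro c s q j hs
    have h1 := h.two c s q j (fun i hi => by
      have := hs (g.symm i) (by simpa using hi)
      simpa using this)
    rw [ncard_prm g (fun i => TT q i ∧ ¬ LT c s q j i)]
    exact h1
  sub4 := fun c s q j => (h.sub4 c s q j).imp (GEK_prm g q 4).2 fun h1 =>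
    exists_prm g (p := fun i => LT c s q j i ∧ ¬ TT q i) h1
  defM := fun hab ha hb hta htb => (h.defM (fun e => hab (g.injective e)) ha hb hta htb).imp id
    fun h1 => exists_prm2 g h1
  symM := fun hm => h.symM hm
  swO := fun c c' s s2 q k j hs =>
    exists_prm g (p := fun i => ¬ LT c s q k i ∧ OUT c' s2 (stK c q k) j i) (h.swO c c' s s2 q k j hs)
  swI := fun c c' s s2 q k j hs =>
    exists_prm g (p := fun i => ¬ LT c s q k i ∧ IN c' s2 (stK c q k) j i) (h.swI c c' s s2 q k j hs)
  sixty := fun hl => h.sixty hl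
  product := fun c' k _ _ _ _ _ hl => h.product c' k hl
  m4 := fun h5 ha hb => g.injective (h.m4 (fun h1 => h5 ((GEK_prm g _ 5).2 h1)) ha hb)
  m5 := fun h6 hab hac hbc ha hb hc => h.m5 (fun h1 => h6 ((GEK_prm g _ 6).2 h1))
    (fun e => hab (g.injective e)) (fun e => hac (g.injective e)) (fun e => hbc (g.injective e))
    ha hb hc
  m6 := fun hab hac had hbc hbd hcd ha hb hc hd => h.m6
    (fun e => hab (g.injective e)) (fun e => hac (g.injective e)) (fun e => had (g.injective e))
    (fun e => hbc (g.injective e)) (fun e => hbd (g.injective e)) (fun e => hcd (g.injective e))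
    ha hb hc hd
  c5 := fun h6 hab hcd h1 h2 h3 h4 => h.c5 (fun h0 => h6 ((GEK_prm g _ 6).2 h0))
    (fun e => hab (g.injective e)) (fun e => hcd (g.injective e)) h1 h2 h3 h4
  k23 := fun hab hcd hce hde h1 h2 h3 h4 h5 h6 => h.k23 (fun e => hab (g.injective e))
    (fun e => hcd (g.injective e)) (fun e => hce (g.injective e)) (fun e => hde (g.injective e))
    h1 h2 h3 h4 h5 h6
  notsub := fun q c j => (h.notsub q c j).imp (GEK_prm g q 4).2 fun h1 =>
    exists_prm g (p := fun i => TT (stK c q j) i ∧ ¬ TT q i) h1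
  third := fun {q c _ j _ _} hn ht => (h.third hn ht).imp (GEK_prm g q 4).2 fun h1 =>
    exists_prm' g (p := fun i => TT (stK c q j) i ∧ ¬ TT q i) h1
  lemmaB := by
    intro q c c' j k a b hn ha hb
    obtain ⟨i, h1, h2, h3⟩ := h.lemmaB hn ha hb
    exact ⟨g.symm i, by simpa using h1, fun e => h2 (by rw [← e]; simp),
      fun e => h3 (by rw [← e]; simp)⟩

/-- **renaming of `WK`** -/
theorem WK.prm (h : WK TT LT IN OUT IC OC at') (g : Equiv.Perm (Fin 6)) :
    WK (fun q i => TT q (g i)) (fun c s q j i => LT c s q j (g i))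
      (fun c s q j i => IN c s q j (g i)) (fun c s q j i => OUT c s q j (g i))
      (fun c k i => IC c k (g i)) (fun c k i => OC c k (g i)) (fun i => at' (g i)) where
  at_lt := fun i hK => h.at_lt (g i) hK
  ty := fun hl => h.ty hl
  inz := fun hl => h.inz hl
  outz := fun hl => h.outz hl
  atIC := fun hl => h.atIC hl
  atOC := fun hl => h.atOC hl
  atI0 := fun hl => h.atI0 hl
  atI1 := fun hl => h.atI1 hl
  atO0 := fun hl => h.atO0 hl
  atO1 := fun hl => h.atO1 hl
  ltO := fun he hn hs hl => h.ltO he hn hs hl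
  ltI := fun he hn hs hl => h.ltI he hn hs hl
  opp := fun he hk hl => h.opp he hk hl

/-- **renaming of `WX`** -/
theorem WX.prm (h : WX TT LT IC OC) (g : Equiv.Perm (Fin 6)) :
    WX (fun q i => TT q (g i)) (fun c s q j i => LT c s q j (g i))
      (fun c k i => IC c k (g i)) (fun c k i => OC c k (g i)) where
  xo := fun c k a b hab => exists_prm g (p := fun i => TT (stK c (q0 K) k) i ∧ OC c k i ∧
    ¬ LT c a (q0 K) (k + 1) i ∧ ¬ LT c b (q0 K) (k - 1) i) (h.xo c k hab)
  xi := fun c k a b hab => exists_prm g (p := fun i => TT (stK c (q0 K) k) i ∧ IC c k i ∧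
    ¬ LT c a (q0 K) (k + 1) i ∧ ¬ LT c b (q0 K) (k - 1) i) (h.xi c k hab)

end Vale.Agent.P032.H617
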