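import Vale.Agent.P032.H437.SatI
import Vale.Agent.P032.H617.SymK

/-!
# P032: renaming the colours in the rule sets `RK`, `WK` of the certificates

`AtK.prm A g` : the atoms of the colour `i` are replaced by the atoms of the colour `g i`.
`RK.prm`, `WK.prm` : the rules hold for the renamed atoms.
-/

open Set

noncomputable section

namespace Vale.Agent.P032.H437

open Vale.Agent.P032.H617

variable {K : ℕ} {A : AtK K}

/-- the renamed atoms -/
def AtK.prm (A : AtK K) (g : Equiv.Perm (Fin 6)) : AtK K where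
  TT := fun q i => A.TT q (g i)
  LT := fun c s q j i => A.LT c s q j (g i)
  IN := fun c s q j i => A.IN c s q j (g i)
  OUT := fun c s q j i => A.OUT c s q j (g i)
  MM := fun q a b => A.MM q (g a) (g b)
  AT := fun i x => A.AT (g i) x
  IC := fun c k i => A.IC c k (g i)
  OC := fun c k i => A.OC c k (g i)

/-- **renaming in the rules for letters** -/
theorem RK.prm (h : RK A) (g : Equiv.Perm (Fin 6)) : RK (A.prm g) where
  lok := Vale.Agent.P032.H617.LOK.prm h.lok g
  six := fun i => h.six (g i)
  side4 := by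
    intro c σ q j x y a b h1 h2 h3 h4 h5 h6 h7 h8 h9 h10
    have inj : ∀ {a b : Fin 6}, a ≠ b → g a ≠ g b := fun h e => h (g.injective e)
    have h11 := h.side4 (inj h1) (inj h2) (inj h3) (inj h4) (inj h5) (inj h6) h7 h8 h9 h10
    exact (GEK_prm (TT := A.TT) g q 5).2 h11

/-- **renaming in the rules for windows** -/
theorem WK.prm (h : H437.WK A) (g : Equiv.Perm (Fin 6)) : H437.WK (A.prm g) where
  sideIO := fun h1 h2 => h.sideIO h1 h2
  atE := fun i => h.atE (g i)
  icd := fun h1 h2 => h.icd h1 h2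
  ocd := fun h1 h2 => h.ocd h1 h2
  inb := fun h1 h2 => h.inb h1 h2
  ina := fun h1 h2 => h.ina h1 h2
  oub := fun h1 h2 => h.oub h1 h2
  oua := fun h1 h2 => h.oua h1 h2
  side := fun h1 => h.side h1
  icT := fun h1 => h.icT h1
  ocT := fun h1 => h.ocT h1
  zi := fun h1 => h.zi h1
  zo := fun h1 => h.zo h1
  sdO := fun h1 h2 h3 => h.sdO h1 h2 h3
  sdI := fun h1 h2 h3 => h.sdI h1 h2 h3

end Vale.Agent.P032.H437
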