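import Vale.Agent.P032.H617.WX

/-!
# P032: the side rules for single honest directions (rays of a 5-centre, any number of times)

`x ∈ HD U z i` : one honest direction of one colour.  `posN uu x` : its position (a number below
`12 K`).  No hypothesis on the other colours, so several directions per colour are possible.
-/

open Set Filter Topology Metric

noncomputable section

namespace Vale.Agent.P032.H617

open Vale.Agent.P032.Six Vale.Agent.P032.Sweep Vale.Agent.P032.S5.H767 Vale.Agent.P032.S5.H122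
  Vale.Agent.P032.H158 Vale.Agent.P032.H782 Vale.Agent.P032.H429 Vale.Agent.P032.H437
  Vale.Agent.P032.H266

variable {U : Fin 6 → Set ℂ} {T : ℂ → Set (Fin 6)} {K : ℕ} {uu : Fin K → ℝ}
  {FF : Fin K → Bool → Ultrafilter ℝ} {z : ℂ} {x y : ℝ} {c : Fin K} {k i : Fin 6}

/-- the position of a direction, a number below `12 K` -/
def posN (uu : Fin K → ℝ) (x : ℝ) : ℕ := (posK uu x % (12 * K)).toNat

theorem posN_eq (uu : Fin K → ℝ) (x : ℝ) (i : Fin 6) : posN uu x = atK uu (fun _ => x) i := rfl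

theorem atK_eq (uu : Fin K → ℝ) (X : Fin 6 → ℝ) (i : Fin 6) : atK uu X i = posN uu (X i) := rfl

theorem posN_lt (hK : 0 < K) (x : ℝ) : posN uu x < 12 * K := atK_lt hK (fun _ => x) 0

theorem posN_six (x : ℝ) (n : ℤ) : posN uu (x + 6 * n) = posN uu x := by
  unfold posN
  rw [posK_six, show posK uu x + 12 * (K : ℤ) * n = posK uu x + n * (12 * (K : ℤ)) by ring,
    Int.add_mul_emod_self_right]

theorem pos_IC (h : FrK U T uu FF) (hx : x ∈ HD U z i) (hi : ICK U z uu c k i) :
    offK K c.val k.val (posN uu x) ≤ 6 * K :=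
  at_front (X := fun _ => x) (i := i) h.mono h.lt1 (front_of_cos ((hx _).2 hi))

theorem pos_OC (h : FrK U T uu FF) (hx : x ∈ HD U z i) (hi : OCK U z uu c k i) :
    offK K c.val k.val (posN uu x) = 0 ∨ 6 * K ≤ offK K c.val k.val (posN uu x) :=
  at_back (X := fun _ => x) (i := i) h.mono h.lt1 (back_of_cos ((hx _).1 hi))

theorem pos_I0 (h : FrK U T uu FF) (hx : x ∈ HD U z i) (hi : IK T z uu FF c false (q0 K) k i) :
    offK K c.val k.val (posN uu x) < 6 * K := by
  unfold IK at hi
  rw [lK_q0] at hi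
  have hi' : ∀ᶠ v in (FF c false : Filter ℝ), OccIn T (pt z (v + (k.val : ℝ)))
    {x | dist x z < 1} i := hi
  obtain ⟨n, h1, h2⟩ := half_left (a := (k.val : ℝ) - 3 / 2) (x := x) (h.fr c).left (by
    filter_upwards [hi'] with v hv
    obtain ⟨n, h1, h2⟩ := front_of_cos ((hx _).2 (innN_of_occ h.irr hv))
    exact ⟨n, by linarith, by linarith⟩)
  exact at_front_left (X := fun _ => x) (i := i) h.mono h.lt1 ⟨n, by linarith, by linarith⟩

theorem pos_I1 (h : FrK U T uu FF) (hx : x ∈ HD U z i) (hi : IK T z uu FF c true (q0 K) k i) :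
    0 < offK K c.val k.val (posN uu x) ∧ offK K c.val k.val (posN uu x) ≤ 6 * K := by
  unfold IK at hi
  rw [lK_q0] at hi
  have hi' : ∀ᶠ v in (FF c true : Filter ℝ), OccIn T (pt z (v + (k.val : ℝ)))
    {x | dist x z < 1} i := hi
  obtain ⟨n, h1, h2⟩ := half_right (a := (k.val : ℝ) - 3 / 2) (x := x) (h.fr c).right (by
    filter_upwards [hi'] with v hv
    obtain ⟨n, h1, h2⟩ := front_of_cos ((hx _).2 (innN_of_occ h.irr hv))
    exact ⟨n, by linarith, by linarith⟩)
  exact at_front_right (X := fun _ => x) (i := i) h.mono h.lt1 ⟨n, by linarith, by linarith⟩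

theorem pos_O0 (h : FrK U T uu FF) (hx : x ∈ HD U z i) (hi : OK T z uu FF c false (q0 K) k i) :
    6 * K ≤ offK K c.val k.val (posN uu x) := by
  unfold OK at hi
  rw [lK_q0] at hi
  have hi' : ∀ᶠ v in (FF c false : Filter ℝ), OccIn T (pt z (v + (k.val : ℝ)))
    {x | 1 < dist x z} i := hi
  obtain ⟨n, h1, h2⟩ := half_left (a := (k.val : ℝ) + 3 / 2) (x := x) (h.fr c).left (by
    filter_upwards [hi'] with v hv
    obtain ⟨n, h1, h2⟩ := back_of_cos ((hx _).1 (outN_of_occ h.irr hv))
    exact ⟨n, by linarith, by linarith⟩)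
  exact at_back_left (X := fun _ => x) (i := i) h.mono h.lt1 ⟨n, by linarith, by linarith⟩

theorem pos_O1 (h : FrK U T uu FF) (hx : x ∈ HD U z i) (hi : OK T z uu FF c true (q0 K) k i) :
    offK K c.val k.val (posN uu x) = 0 ∨ 6 * K < offK K c.val k.val (posN uu x) := by
  unfold OK at hi
  rw [lK_q0] at hi
  have hi' : ∀ᶠ v in (FF c true : Filter ℝ), OccIn T (pt z (v + (k.val : ℝ)))
    {x | 1 < dist x z} i := hi
  obtain ⟨n, h1, h2⟩ := half_right (a := (k.val : ℝ) + 3 / 2) (x := x) (h.fr c).right (by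
    filter_upwards [hi'] with v hv
    obtain ⟨n, h1, h2⟩ := back_of_cos ((hx _).1 (outN_of_occ h.irr hv))
    exact ⟨n, by linarith, by linarith⟩)
  exact at_back_right (X := fun _ => x) (i := i) h.mono h.lt1 ⟨n, by linarith, by linarith⟩

/-! ### Side units from the position: a letter of `z` whose direction is strictly in front -/

/-- a colour of the letter of `z` with an honest direction strictly in front at almost all times is
inside only -/
theorem in_of_front (hf : Fr U T (uu c) (FF c)) {σ : Bool} (hx : x ∈ HD U z i)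
    (hi : i ∈ H437.lt (FF c σ) T z (k.val : ℝ))
    (hfr : ∃ᶠ v in (FF c σ : Filter ℝ), 0 < Real.cos ((x - (v + (k.val : ℝ))) * (Real.pi / 3))) :
    Inn (FF c σ) T z (k.val : ℝ) i ∧ ¬ Out (FF c σ) T z (k.val : ℝ) i := by
  have hno : ¬ Out (FF c σ) T z (k.val : ℝ) i := by
    intro ho
    have ho' : ∀ᶠ v in (FF c σ : Filter ℝ), OccIn T (pt z (v + (k.val : ℝ)))
      {x | 1 < dist x z} i := ho
    obtain ⟨v, h1, h2⟩ := (hfr.and_eventually ho').exists
    have h3 := (hx _).1 (outN_of_occ hf.irr h2)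
    linarith
  rcases hf.side_w hi with h | h
  · exact ⟨h, hno⟩
  · exact absurd h hno

theorem out_of_back (hf : Fr U T (uu c) (FF c)) {σ : Bool} (hx : x ∈ HD U z i)
    (hi : i ∈ H437.lt (FF c σ) T z (k.val : ℝ))
    (hfr : ∃ᶠ v in (FF c σ : Filter ℝ), Real.cos ((x - (v + (k.val : ℝ))) * (Real.pi / 3)) < 0) :
    Out (FF c σ) T z (k.val : ℝ) i ∧ ¬ Inn (FF c σ) T z (k.val : ℝ) i := by
  have hno : ¬ Inn (FF c σ) T z (k.val : ℝ) i := by
    intro ho
    have ho' : ∀ᶠ v in (FF c σ : Filter ℝ), OccIn T (pt z (v + (k.val : ℝ)))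
      {x | dist x z < 1} i := ho
    obtain ⟨v, h1, h2⟩ := (hfr.and_eventually ho').exists
    have h3 := (hx _).2 (innN_of_occ hf.irr h2)
    linarith
  rcases hf.side_w hi with h | h
  · exact absurd h hno
  · exact ⟨h, hno⟩

end Vale.Agent.P032.H617
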