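import Vale.Agent.P032.H617.TAng
import Vale.Agent.P032.H437.Fr2

/-!
# P032: the palette rules at the points of the lattice of rank four (K = 2)

`lp2 z u u' m n m' n'` with `u < u' < u + 1`.  A slot is a pair (class, direction): class `false` = time
`u`, class `true` = time `u'`.
-/

open Set Filter Topology Metric

noncomputable section

namespace Vale.Agent.P032.H617

open Vale.Agent.P032.Six Vale.Agent.P032.S5.H767 Vale.Agent.P032.S5.H122 Vale.Agent.P032.H437

variable {U : Fin 6 → Set ℂ} {T : ℂ → Set (Fin 6)} {z : ℂ} {u u' : ℝ}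

/-- the time of a class -/
def tm (u u' : ℝ) (c : Bool) : ℝ := if c then u' else u

@[simp] theorem tm_false (u u' : ℝ) : tm u u' false = u := rfl
@[simp] theorem tm_true (u u' : ℝ) : tm u u' true = u' := rfl

/-- the direction of a slot -/
def dir2 (u u' : ℝ) (c : Bool) (j : Fin 6) : ℝ := tm u u' c + (j.val : ℝ)

/-- the slots are not parallel -/
def Np (c c' : Bool) (j k : Fin 6) : Bool := c != c' || (k != j && k != j + 3)

theorem npar2 (h0 : u < u') (h1 : u' < u + 1) {c c' : Bool} {j k : Fin 6} (h : Np c c' j k = true) :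
    Npar (dir2 u u' c j) (dir2 u u' c' k) := by
  unfold Np at h
  unfold dir2
  rcases c with _ | _ <;> rcases c' with _ | _ <;> simp at h ⊢
  · exact npar_fin u h.1 h.2
  · exact npar_two h0 h1 j k
  · exact (npar_two h0 h1 k j).symm
  · exact npar_fin u' h.1 h.2

/-! ### any centre -/

/-- **F13** -/
theorem notsub2 (h : Irr U T) (x : ℂ) (c : Bool) (j : Fin 6) :
    4 ≤ (T x).ncard ∨ ∃ i, i ∈ T (pt x (dir2 u u' c j)) ∧ i ∉ T x :=
  notsub_pt h x _

/-- **F14** -/
theorem third2 (h : Irr U T) (h0 : u < u') (h1 : u' < u + 1) (x : ℂ) {c c' : Bool} {j k : Fin 6}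
    (hn : Np c c' j k = true) {t : Fin 6}
    (ht : t ∈ T (pt (pt x (dir2 u u' c j)) (dir2 u u' c' k))) :
    4 ≤ (T x).ncard ∨ ∃ i, i ≠ t ∧ i ∈ T (pt x (dir2 u u' c j)) ∧ i ∉ T x :=
  third_ang h x (npar2 h0 h1 hn) ht

/-- **F12** -/
theorem lemmaB2 (h : Irr U T) (h0 : u < u') (h1 : u' < u + 1) (x : ℂ) {c c' : Bool} {j k : Fin 6}
    (hn : Np c c' j k = true) {a b : Fin 6}
    (ha : a ∈ T (pt x (dir2 u u' c j))) (hb : b ∈ T (pt x (dir2 u u' c' k))) :
    ∃ i ∈ T x, i ≠ a ∧ i ≠ b :=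
  lemmaB_ang h x (npar2 h0 h1 hn) ha hb

/-! ### the lattice -/

/-- first two coordinates of a step -/
def ax (c : Bool) (j : Fin 6) : ℤ := if c then 0 else dx j
def ay (c : Bool) (j : Fin 6) : ℤ := if c then 0 else dy j
/-- last two coordinates of a step -/
def bx (c : Bool) (j : Fin 6) : ℤ := if c then dx j else 0
def by' (c : Bool) (j : Fin 6) : ℤ := if c then dy j else 0

theorem lp2_dir (z : ℂ) (u u' : ℝ) (m n m' n' : ℤ) (c : Bool) (j : Fin 6) :
    pt (lp2 z u u' m n m' n') (dir2 u u' c j) =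
      lp2 z u u' (m + ax c j) (n + ay c j) (m' + bx c j) (n' + by' c j) := by
  rcases c with _ | _
  · simp only [dir2, tm_false, ax, ay, bx, by', Bool.false_eq_true, if_false, add_zero]
    exact lp2_step z u u' m n m' n' j
  · simp only [dir2, tm_true, ax, ay, bx, by', if_true, add_zero]
    exact lp2_step' z u u' m n m' n' j

/-- **F13** -/
theorem notsub_lp2 (h : Irr U T) (m n m' n' : ℤ) (c : Bool) (j : Fin 6) :
    4 ≤ (T (lp2 z u u' m n m' n')).ncard ∨
      ∃ i, i ∈ T (lp2 z u u' (m + ax c j) (n + ay c j) (m' + bx c j) (n' + by' c j)) ∧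
        i ∉ T (lp2 z u u' m n m' n') := by
  rw [← lp2_dir]
  exact notsub2 h _ c j

/-- **F14** -/
theorem third_lp2 (h : Irr U T) (h0 : u < u') (h1 : u' < u + 1) (m n m' n' : ℤ) {c c' : Bool}
    {j k : Fin 6} (hn : Np c c' j k = true) {t : Fin 6}
    (ht : t ∈ T (lp2 z u u' (m + ax c j + ax c' k) (n + ay c j + ay c' k)
      (m' + bx c j + bx c' k) (n' + by' c j + by' c' k))) :
    4 ≤ (T (lp2 z u u' m n m' n')).ncard ∨
      ∃ i, i ≠ t ∧ i ∈ T (lp2 z u u' (m + ax c j) (n + ay c j) (m' + bx c j) (n' + by' c j)) ∧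
        i ∉ T (lp2 z u u' m n m' n') := by
  rw [← lp2_dir, ← lp2_dir] at ht
  rw [← lp2_dir]
  exact third2 h h0 h1 _ hn ht

/-- **F12** -/
theorem lemmaB_lp2 (h : Irr U T) (h0 : u < u') (h1 : u' < u + 1) (m n m' n' : ℤ) {c c' : Bool}
    {j k : Fin 6} (hn : Np c c' j k = true) {a b : Fin 6}
    (ha : a ∈ T (lp2 z u u' (m + ax c j) (n + ay c j) (m' + bx c j) (n' + by' c j)))
    (hb : b ∈ T (lp2 z u u' (m + ax c' k) (n + ay c' k) (m' + bx c' k) (n' + by' c' k))) :
    ∃ i ∈ T (lp2 z u u' m n m' n'), i ≠ a ∧ i ≠ b := by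
  rw [← lp2_dir] at ha hb
  exact lemmaB2 h h0 h1 _ hn ha hb

end Vale.Agent.P032.H617
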