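import Vale.Agent.P032.H437.LOK
import Vale.Agent.P032.H266.FamZ

/-!
# P032: the side rules at the centre `z` for any number of times, one honest direction per colour

`X i ∈ HD U z i` : one honest direction of the colour `i` at `z` (units of 60 degrees).
`posK uu x : ℤ` : the position of the direction `x` among the `6 K` rays `uu c + m + 1/2` and the
`6 K` open sectors between them (`12 K` positions per turn, rays are even).  `ICK`, `OCK` : the
colour occurs inside (outside) the disc of `z` near the slot.  `WK` : the rules, `wk_of_frK` : the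
instance.  No windows, no states.
-/

open Set Filter Topology Metric

noncomputable section

namespace Vale.Agent.P032.H617

open Vale.Agent.P032.Six Vale.Agent.P032.Sweep Vale.Agent.P032.S5.H767 Vale.Agent.P032.S5.H122
  Vale.Agent.P032.H158 Vale.Agent.P032.H782 Vale.Agent.P032.H429 Vale.Agent.P032.H437
  Vale.Agent.P032.H266

/-! ### Letters and sides -/

section Side

variable {U : Fin 6 → Set ℂ} {T : ℂ → Set (Fin 6)} {u : ℝ} {F : Bool → Ultrafilter ℝ}
  {σ : Bool} {w z y : ℂ} {m s : ℝ} {i : Fin 6}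

theorem lt_side (hf : Fr U T u F) (hi : i ∈ lt (F σ) T w m) {C : Set ℂ}
    (hC : ∀ᶠ v in (F σ : Filter ℝ), pt w (v + m) ∈ C) :
    ∃ᶠ x in 𝓝 (pt w (u + m)), i ∈ T x ∧ x ∈ C := by
  have h1 : ∀ᶠ v in (F σ : Filter ℝ), i ∈ T (pt w (v + m)) ∧ pt w (v + m) ∈ C := by
    have hi' : ∀ᶠ v in (F σ : Filter ℝ), i ∈ T (pt w (v + m)) := hi
    exact hi'.and hC
  exact (tendsto_slot (hf.le σ) w m).frequently h1.frequently

/-- the displacement of the slot seen from a point `z` with `pt w (u + m) = pt z s` -/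
theorem dist_move {v : ℝ} (hy : pt w (u + m) = pt z s) :
    dist (pt (pt w (u + m)) s + (pt w (v + m) - pt w (u + m))) (pt w (u + m)) =
      dist (pt w (v + m)) z := by
  have e1 : z = pt w (u + m) - cis (s * (Real.pi / 3)) := by rw [hy]; unfold pt; ring
  have e2 : pt (pt w (u + m)) s = pt w (u + m) + cis (s * (Real.pi / 3)) := rfl
  rw [dist_eq_norm, dist_eq_norm, e2]
  congr 1
  rw [e1]
  ring

/-- the sign of the displacement -/
theorem side_far (hf : Fr U T u F) (hy : pt w (u + m) = pt z s)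
    (hs : 0 < sg σ * Real.sin ((s - (u + m)) * (Real.pi / 3))) :
    ∀ᶠ v in (F σ : Filter ℝ), 1 < dist (pt w (v + m)) z := by
  have hl : Filter.map (fun v : ℝ => v + m) (F σ : Filter ℝ) ≤ 𝓝 (u + m) := by
    have hc : Continuous fun v : ℝ => v + m := by fun_prop
    exact (hc.tendsto u).mono_left (hf.le σ)
  have hc : ∀ᶠ v in Filter.map (fun v : ℝ => v + m) (F σ : Filter ℝ), 0 < sg σ * (v - (u + m)) := by
    rw [eventually_map]
    filter_upwards [hf.ev_sg σ] with v hv
    rwa [show v + m - (u + m) = v - u by ring]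
  have h1 := side_ev (w := w) hl hc hs.ne'
  rw [eventually_map] at h1
  filter_upwards [h1] with v hv
  rw [dist_move hy] at hv
  have h2 := (mul_pos_iff_of_pos_left hs).1 hv
  exact (sq_lt dist_nonneg).2.2 h2

theorem side_near (hf : Fr U T u F) (hy : pt w (u + m) = pt z s)
    (hs : sg σ * Real.sin ((s - (u + m)) * (Real.pi / 3)) < 0) :
    ∀ᶠ v in (F σ : Filter ℝ), dist (pt w (v + m)) z < 1 := by
  have hl : Filter.map (fun v : ℝ => v + m) (F σ : Filter ℝ) ≤ 𝓝 (u + m) := by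
    have hc : Continuous fun v : ℝ => v + m := by fun_prop
    exact (hc.tendsto u).mono_left (hf.le σ)
  have hc : ∀ᶠ v in Filter.map (fun v : ℝ => v + m) (F σ : Filter ℝ), 0 < sg σ * (v - (u + m)) := by
    rw [eventually_map]
    filter_upwards [hf.ev_sg σ] with v hv
    rwa [show v + m - (u + m) = v - u by ring]
  have h1 := side_ev (w := w) hl hc hs.ne
  rw [eventually_map] at h1
  filter_upwards [h1] with v hv
  rw [dist_move hy] at hv
  have h2 := (neg_iff_neg_of_mul_pos hv).1 hs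
  exact (sq_lt dist_nonneg).1.2 h2

/-- the opposite centre: the circle about `w` touches the disc of `z` from outside -/
theorem side_opp (hf : Fr U T u F) (hy : dist (pt w (u + m)) z = 1)
    (hw : w + z = 2 * pt w (u + m)) :
    ∀ᶠ v in (F σ : Filter ℝ), 1 < dist (pt w (v + m)) z := by
  have h2 : ∀ᶠ v in 𝓝 u, |v - u| < 1 := by
    have hcon : Continuous fun v : ℝ => |v - u| := by fun_prop
    refine hcon.continuousAt.eventually (Iio_mem_nhds ?_)
    simp
  filter_upwards [hf.ev_sg σ, hf.le σ h2] with v h3 h4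
  have h4 : |v - u| < 1 := h4
  have h5 : v ≠ u := by
    rintro rfl
    rw [sub_self, mul_zero] at h3
    exact lt_irrefl _ h3
  have hd : dist (pt w (v + m)) w = 1 := dist_pt _ _
  -- the square of the distance
  have e1 : z = w + 2 * cis ((u + m) * (Real.pi / 3)) := by
    have : pt w (u + m) = w + cis ((u + m) * (Real.pi / 3)) := rfl
    rw [this] at hw
    linear_combination hw
  have e2 : dist (pt w (v + m)) z ^ 2 = 5 - 4 * Real.cos ((v - u) * (Real.pi / 3)) := by
    have e3 : pt w (v + m) = w + cis ((v + m) * (Real.pi / 3)) := rfl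
    rw [e3, e1, sq_dist]
    simp only [Complex.add_re, Complex.add_im, cis_re, cis_im, Complex.mul_re, Complex.mul_im,
      Complex.re_ofNat, Complex.im_ofNat, zero_mul, sub_zero, add_zero]
    have e4 : (v - u) * (Real.pi / 3) = (v + m) * (Real.pi / 3) - (u + m) * (Real.pi / 3) := by ring
    rw [e4, Real.cos_sub]
    have s1 := Real.sin_sq_add_cos_sq ((v + m) * (Real.pi / 3))
    have s2 := Real.sin_sq_add_cos_sq ((u + m) * (Real.pi / 3))
    linear_combination s1 + 4 * s2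
  have hp := Real.pi_pos
  have h6 : Real.cos ((v - u) * (Real.pi / 3)) < 1 := by
    have h7 : (v - u) * (Real.pi / 3) ≠ 0 := mul_ne_zero (sub_ne_zero.2 h5) (by positivity)
    refine lt_of_le_of_ne (Real.cos_le_one _) fun h8 => h7 ?_
    obtain ⟨h9, h10⟩ := abs_lt.1 h4
    refine (Real.cos_eq_one_iff_of_lt_of_lt ?_ ?_).1 h8
    · nlinarith
    · nlinarith
  have h7 : 1 < dist (pt w (v + m)) z ^ 2 := by rw [e2]; linarith
  have h8 : 0 ≤ dist (pt w (v + m)) z := dist_nonneg
  nlinarith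

theorem out_of_lt (hf : Fr U T u F) (hi : i ∈ lt (F σ) T w m) (hy : pt w (u + m) = pt z s)
    (hs : 0 < sg σ * Real.sin ((s - (u + m)) * (Real.pi / 3))) : OutN U z (pt z s) i := by
  rw [← hy]
  exact outN_of hf.irr (lt_side hf hi (C := {x | 1 < dist x z}) (side_far hf hy hs))

theorem inn_of_lt (hf : Fr U T u F) (hi : i ∈ lt (F σ) T w m) (hy : pt w (u + m) = pt z s)
    (hs : sg σ * Real.sin ((s - (u + m)) * (Real.pi / 3)) < 0) : InnN U z (pt z s) i := by
  rw [← hy]
  exact innN_of hf.irr (lt_side hf hi (C := {x | dist x z < 1}) (side_near hf hy hs))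

theorem out_of_opp (hf : Fr U T u F) (hi : i ∈ lt (F σ) T w m) (hy : pt w (u + m) = pt z s)
    (hw : w + z = 2 * pt w (u + m)) : OutN U z (pt z s) i := by
  have h1 : dist (pt w (u + m)) z = 1 := by rw [hy]; exact dist_pt _ _
  have h2 := outN_of hf.irr (lt_side hf hi (C := {x | 1 < dist x z}) (side_opp hf h1 hw))
  rwa [hy] at h2

theorem outN_of_occ (h : Irr U T) (ho : OccIn T y {x | 1 < dist x z} i) : OutN U z y i :=
  outN_of h (Filter.Frequently.mono ho fun x hx => ⟨by rw [hx.1]; rfl, hx.2⟩)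

theorem innN_of_occ (h : Irr U T) (ho : OccIn T y {x | dist x z < 1} i) : InnN U z y i :=
  innN_of h (Filter.Frequently.mono ho fun x hx => ⟨by rw [hx.1]; rfl, hx.2⟩)

/-- a colour outside near the slots `v + m`, `v → u`, is outside near the slot `u + m` -/
theorem outN_lim (hf : Fr U T u F) (ho : Out (F σ) T z m i) : OutN U z (pt z (u + m)) i := by
  have h1 : ∀ᶠ v in (F σ : Filter ℝ), OutN U z (pt z (v + m)) i := by
    have ho' : ∀ᶠ v in (F σ : Filter ℝ), OccIn T (pt z (v + m)) {x | 1 < dist x z} i := ho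
    filter_upwards [ho'] with v hv
    exact outN_of_occ hf.irr hv
  have h2 := tendsto_slot (hf.le σ) z m
  unfold OutN
  rw [frequently_nhds_iff]
  intro V hV hVo
  obtain ⟨v, hv1, hv2⟩ := (h1.and (h2.eventually (hVo.mem_nhds hV))).exists
  exact (frequently_nhds_iff.1 hv1) V hv2 hVo

theorem innN_lim (hf : Fr U T u F) (ho : Inn (F σ) T z m i) : InnN U z (pt z (u + m)) i := by
  have h1 : ∀ᶠ v in (F σ : Filter ℝ), InnN U z (pt z (v + m)) i := by
    have ho' : ∀ᶠ v in (F σ : Filter ℝ), OccIn T (pt z (v + m)) {x | dist x z < 1} i := ho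
    filter_upwards [ho'] with v hv
    exact innN_of_occ hf.irr hv
  have h2 := tendsto_slot (hf.le σ) z m
  unfold InnN
  rw [frequently_nhds_iff]
  intro V hV hVo
  obtain ⟨v, hv1, hv2⟩ := (h1.and (h2.eventually (hVo.mem_nhds hV))).exists
  exact (frequently_nhds_iff.1 hv1) V hv2 hVo

end Side

/-! ### Half circles -/

theorem front_of_cos {x t : ℝ} (h : 0 ≤ Real.cos ((x - t) * (Real.pi / 3))) :
    ∃ n : ℤ, t - 3 / 2 ≤ x + 6 * n ∧ x + 6 * n ≤ t + 3 / 2 := by
  have h1 : Real.cos ((x - t - 3) * (Real.pi / 3)) ≤ 0 := by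
    have e : (x - t - 3) * (Real.pi / 3) = (x - t) * (Real.pi / 3) - Real.pi := by ring
    rw [e, Real.cos_sub_pi]
    linarith
  obtain ⟨n, h2, h3⟩ := (cos_le_iff _).1 h1
  exact ⟨n - 1, by push_cast; linarith, by push_cast; linarith⟩

theorem back_of_cos {x t : ℝ} (h : Real.cos ((x - t) * (Real.pi / 3)) ≤ 0) :
    ∃ n : ℤ, t + 3 / 2 ≤ x + 6 * n ∧ x + 6 * n ≤ t + 9 / 2 := by
  obtain ⟨n, h2, h3⟩ := (cos_le_iff _).1 h
  exact ⟨n, by linarith, by linarith⟩

/-- `x` in the half circle `[t + a, t + a + 3]` at times `t → u` before `u` : in `[u + a, u + a + 3)` -/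
theorem half_left {u a x : ℝ} {F : Ultrafilter ℝ} (hF : (F : Filter ℝ) ≤ 𝓝[<] u)
    (h : ∀ᶠ v in (F : Filter ℝ), ∃ n : ℤ, v + a ≤ x + 6 * n ∧ x + 6 * n ≤ v + a + 3) :
    ∃ n : ℤ, u + a ≤ x + 6 * n ∧ x + 6 * n < u + a + 3 := by
  have hlt : ∀ᶠ v in 𝓝[<] u, v < u := self_mem_nhdsWithin
  obtain ⟨m, hm0, hm6⟩ : ∃ m : ℤ, u + a ≤ x + 6 * m ∧ x + 6 * m < u + a + 6 := by
    refine ⟨-⌊(x - u - a) / 6⌋, ?_, ?_⟩
    · have := Int.floor_le ((x - u - a) / 6)
      push_cast
      linarith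
    · have := Int.lt_floor_add_one ((x - u - a) / 6)
      push_cast
      linarith
  refine ⟨m, hm0, ?_⟩
  by_contra hcon
  push Not at hcon
  -- `x + 6 m` in `[u + a + 3, u + a + 6)` : no `n` works for `v` near `u`
  have h1 : ∀ᶠ v in 𝓝 u, x + 6 * m - 6 < v + a := by
    have hc : Continuous fun v : ℝ => v + a := by fun_prop
    exact hc.continuousAt.eventually (Ioi_mem_nhds (by linarith : x + 6 * (m : ℝ) - 6 < u + a))
  obtain ⟨v, ⟨⟨n, h2, h3⟩, h4⟩, h5⟩ :=
    ((h.and (hF hlt)).and (hF (nhdsWithin_le_nhds h1))).exists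
  have h4 : v < u := h4
  have h5 : x + 6 * (m : ℝ) - 6 < v + a := h5
  have h6 : (n : ℝ) < m := by linarith
  have h7 : (m : ℝ) < n + 1 := by linarith
  have h8 : n < m := by exact_mod_cast h6
  have h9 : m < n + 1 := by exact_mod_cast h7
  omega

theorem half_right {u a x : ℝ} {F : Ultrafilter ℝ} (hF : (F : Filter ℝ) ≤ 𝓝[>] u)
    (h : ∀ᶠ v in (F : Filter ℝ), ∃ n : ℤ, v + a ≤ x + 6 * n ∧ x + 6 * n ≤ v + a + 3) :
    ∃ n : ℤ, u + a < x + 6 * n ∧ x + 6 * n ≤ u + a + 3 := by
  have hlt : ∀ᶠ v in 𝓝[>] u, u < v := self_mem_nhdsWithin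
  obtain ⟨m, hm0, hm6⟩ : ∃ m : ℤ, u + a < x + 6 * m ∧ x + 6 * m ≤ u + a + 6 := by
    refine ⟨-⌈(x - u - a) / 6⌉ + 1, ?_, ?_⟩
    · have := Int.ceil_lt_add_one ((x - u - a) / 6)
      push_cast
      linarith
    · have := Int.le_ceil ((x - u - a) / 6)
      push_cast
      linarith
  refine ⟨m, hm0, ?_⟩
  by_contra hcon
  push Not at hcon
  have h1 : ∀ᶠ v in 𝓝 u, v + a + 3 < x + 6 * m := by
    have hc : Continuous fun v : ℝ => v + a + 3 := by fun_prop
    exact hc.continuousAt.eventually (Iio_mem_nhds hcon)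
  obtain ⟨v, ⟨⟨n, h2, h3⟩, h4⟩, h5⟩ :=
    ((h.and (hF hlt)).and (hF (nhdsWithin_le_nhds h1))).exists
  have h4 : u < v := h4
  have h5 : v + a + 3 < x + 6 * (m : ℝ) := h5
  have h6 : (n : ℝ) < m := by linarith
  have h7 : (m : ℝ) < n + 1 := by linarith
  have h8 : n < m := by exact_mod_cast h6
  have h9 : m < n + 1 := by exact_mod_cast h7
  omega

/-! ### Positions -/

section Pos

variable {K : ℕ} {uu : Fin K → ℝ}

/-- the position of a direction: rays `uu c + m + 1/2` and sectors -/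
def posK (uu : Fin K → ℝ) (x : ℝ) : ℤ :=
  ∑ c, (⌊x - uu c - 1 / 2⌋ + ⌈x - uu c - 1 / 2⌉) + ((K : ℤ) - 1)

theorem posK_mono {x y : ℝ} (h : x ≤ y) : posK uu x ≤ posK uu y := by
  unfold posK
  refine Int.add_le_add_right (Finset.sum_le_sum fun c _ => ?_) _
  exact Int.add_le_add (Int.floor_le_floor (by linarith)) (Int.ceil_le_ceil (by linarith))

theorem posK_six (x : ℝ) (n : ℤ) : posK uu (x + 6 * n) = posK uu x + 12 * K * n := by
  unfold posK
  have h1 : ∀ c, (⌊x + 6 * n - uu c - 1 / 2⌋ + ⌈x + 6 * n - uu c - 1 / 2⌉) =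
      (⌊x - uu c - 1 / 2⌋ + ⌈x - uu c - 1 / 2⌉) + 12 * n := by
    intro c
    have e : x + 6 * n - uu c - 1 / 2 = x - uu c - 1 / 2 + ((6 * n : ℤ) : ℝ) := by push_cast; ring
    rw [e, Int.floor_add_intCast, Int.ceil_add_intCast]
    ring
  simp only [h1, Finset.sum_add_distrib, Finset.sum_const, Finset.card_univ, Fintype.card_fin,
    nsmul_eq_mul]
  ring

/-- strictly before a ray -/
theorem posK_lt_ray {x : ℝ} {c : Fin K} {m : ℤ} (h : x < uu c + m + 1 / 2) :
    posK uu x < posK uu (uu c + m + 1 / 2) := by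
  unfold posK
  refine Int.add_lt_add_right (Finset.sum_lt_sum (fun b _ => ?_) ⟨c, Finset.mem_univ c, ?_⟩) _
  · exact Int.add_le_add (Int.floor_le_floor (by linarith)) (Int.ceil_le_ceil (by linarith))
  · have e : uu c + m + 1 / 2 - uu c - 1 / 2 = (m : ℝ) := by ring
    rw [e, Int.floor_intCast, Int.ceil_intCast]
    have h1 : ⌊x - uu c - 1 / 2⌋ < m := Int.floor_lt.2 (by linarith)
    have h2 : ⌈x - uu c - 1 / 2⌉ ≤ m := Int.ceil_le.2 (by linarith)
    omega

/-- strictly behind a ray -/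
theorem posK_ray_lt {x : ℝ} {c : Fin K} {m : ℤ} (h : uu c + m + 1 / 2 < x) :
    posK uu (uu c + m + 1 / 2) < posK uu x := by
  unfold posK
  refine Int.add_lt_add_right (Finset.sum_lt_sum (fun b _ => ?_) ⟨c, Finset.mem_univ c, ?_⟩) _
  · exact Int.add_le_add (Int.floor_le_floor (by linarith)) (Int.ceil_le_ceil (by linarith))
  · have e : uu c + m + 1 / 2 - uu c - 1 / 2 = (m : ℝ) := by ring
    rw [e, Int.floor_intCast, Int.ceil_intCast]
    have h1 : m ≤ ⌊x - uu c - 1 / 2⌋ := Int.le_floor.2 (by linarith)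
    have h2 : m < ⌈x - uu c - 1 / 2⌉ := Int.lt_ceil.2 (by linarith)
    omega

theorem sum_side (c : Fin K) : (∑ b : Fin K, (if b < c then (1 : ℤ) else if c < b then -1 else 0)) =
    2 * (c.val : ℤ) - ((K : ℤ) - 1) := by
  have h1 : (∑ b : Fin K, (if b < c then (1 : ℤ) else 0)) = (c.val : ℤ) := by
    rw [Finset.sum_ite, Finset.sum_const_zero, add_zero, Finset.sum_const, nsmul_eq_mul, mul_one]
    have : (Finset.univ.filter fun b : Fin K => b < c) = Finset.Iio c := by ext b; simp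
    rw [this, Fin.card_Iio]
  have h2 : (∑ b : Fin K, (if c < b then (1 : ℤ) else 0)) = (K : ℤ) - 1 - (c.val : ℤ) := by
    rw [Finset.sum_ite, Finset.sum_const_zero, add_zero, Finset.sum_const, nsmul_eq_mul, mul_one]
    have : (Finset.univ.filter fun b : Fin K => c < b) = Finset.Ioi c := by ext b; simp
    rw [this, Fin.card_Ioi]
    have := c.isLt
    omega
  have h3 : ∀ b : Fin K, (if b < c then (1 : ℤ) else if c < b then -1 else 0) =
      (if b < c then (1 : ℤ) else 0) - (if c < b then (1 : ℤ) else 0) := by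
    intro b
    rcases lt_trichotomy b c with h | h | h
    · simp [h, not_lt.2 h.le]
    · simp [h]
    · simp [h, not_lt.2 h.le]
  rw [Finset.sum_congr rfl fun b _ => h3 b, Finset.sum_sub_distrib, h1, h2]
  ring

/-- **the rays** -/
theorem posK_ray (hm : StrictMono uu) (h1 : ∀ c c', uu c' < uu c + 1) (c : Fin K) (m : ℤ) :
    posK uu (uu c + m + 1 / 2) = 2 * K * m + 2 * (c.val : ℤ) := by
  unfold posK
  have key : ∀ b : Fin K, (⌊uu c + m + 1 / 2 - uu b - 1 / 2⌋ + ⌈uu c + m + 1 / 2 - uu b - 1 / 2⌉) =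
      2 * m + (if b < c then (1 : ℤ) else if c < b then -1 else 0) := by
    intro b
    have e : uu c + m + 1 / 2 - uu b - 1 / 2 = (uu c - uu b) + ((m : ℤ) : ℝ) := by ring
    rw [e, Int.floor_add_intCast, Int.ceil_add_intCast]
    rcases lt_trichotomy b c with h | h | h
    · have a1 := hm h
      have a2 := h1 b c
      have f1 : ⌊uu c - uu b⌋ = 0 := Int.floor_eq_iff.2 ⟨by push_cast; linarith, by push_cast; linarith⟩
      have f2 : ⌈uu c - uu b⌉ = 1 := Int.ceil_eq_iff.2 ⟨by push_cast; linarith, by push_cast; linarith⟩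
      rw [f1, f2, if_pos h]; ring
    · subst h
      simp
      ring
    · have a1 := hm h
      have a2 := h1 c b
      have f1 : ⌊uu c - uu b⌋ = -1 :=
        Int.floor_eq_iff.2 ⟨by push_cast; linarith, by push_cast; linarith⟩
      have f2 : ⌈uu c - uu b⌉ = 0 := Int.ceil_eq_iff.2 ⟨by push_cast; linarith, by push_cast; linarith⟩
      rw [f1, f2, if_neg (not_lt.2 h.le), if_pos h]; ring
  rw [Finset.sum_congr rfl fun b _ => key b, Finset.sum_add_distrib, sum_side, Finset.sum_const,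
    Finset.card_univ, Fintype.card_fin, nsmul_eq_mul]
  ring

/-- the position of the honest direction of a colour, a number below `12 K` -/
def atK (uu : Fin K → ℝ) (X : Fin 6 → ℝ) (i : Fin 6) : ℕ := (posK uu (X i) % (12 * K)).toNat

/-- the offset of a position from the first ray of the front half circle of the slot `(c, k)` -/
def offK (K c k x : ℕ) : ℕ := (x + 16 * K - 2 * K * k - 2 * c) % (12 * K)

theorem offK_of (hm : StrictMono uu) (h1 : ∀ c c', uu c' < uu c + 1) (c : Fin K) (k : Fin 6)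
    {X : Fin 6 → ℝ} {i : Fin 6} {n d : ℤ} (hd : posK uu (X i + 6 * n) =
      posK uu (uu c + (((k.val : ℤ) - 2 : ℤ) : ℝ) + 1 / 2) + d) (hd0 : 0 ≤ d) (hd1 : d < 12 * K) :
    offK K c.val k.val (atK uu X i) = d.toNat := by
  rw [posK_ray hm h1, posK_six] at hd
  have hK : 0 < K := lt_of_le_of_lt (Nat.zero_le _) c.isLt
  have hc := c.isLt
  have hk := k.isLt
  have hKz : (0 : ℤ) < 12 * (K : ℤ) := by omega
  set p : ℤ := posK uu (X i) with hp
  have ha0 := Int.emod_nonneg p hKz.ne'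
  have ha1 := Int.emod_lt_of_pos p hKz
  have hat : ((atK uu X i : ℕ) : ℤ) = p % (12 * K) := by
    unfold atK
    rw [← hp]
    exact Int.toNat_of_nonneg ha0
  have hkk : 2 * K * k.val ≤ 10 * K := by
    have : 2 * K * k.val ≤ 2 * K * 5 := Nat.mul_le_mul_left _ (by omega)
    omega
  have hle : 2 * K * k.val + 2 * c.val ≤ atK uu X i + 16 * K := by omega
  have hoff : ((offK K c.val k.val (atK uu X i) : ℕ) : ℤ) = d := by
    unfold offK
    have e1 : atK uu X i + 16 * K - 2 * K * k.val - 2 * c.val =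
        atK uu X i + 16 * K - (2 * K * k.val + 2 * c.val) := by omega
    rw [e1]
    push_cast [Nat.cast_sub hle]
    rw [hat]
    have e2 : p % (12 * K) = p - 12 * K * (p / (12 * K)) := by
      have := Int.emod_add_mul_ediv p (12 * K)
      linarith
    have e3 : p % (12 * (K : ℤ)) + 16 * K - (2 * K * (k.val : ℤ) + 2 * (c.val : ℤ)) =
        d + 12 * K * (1 - n - p / (12 * K)) := by
      rw [e2]
      linear_combination hd
    rw [e3, Int.add_mul_emod_self_left]
    exact Int.emod_eq_of_lt hd0 hd1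
  omega

end Pos

section Off

variable {K : ℕ} {uu : Fin K → ℝ} {X : Fin 6 → ℝ} {c : Fin K} {k i : Fin 6}

/-- the base ray of the slot -/
theorem base_eq (c : Fin K) (k : Fin 6) :
    uu c + (((k.val : ℤ) - 2 : ℤ) : ℝ) + 1 / 2 = uu c + (k.val : ℝ) - 3 / 2 := by
  push_cast; ring

theorem off_range (hm : StrictMono uu) (h1 : ∀ c c', uu c' < uu c + 1) {n lo hi : ℤ}
    (hlo : posK uu (uu c + (((k.val : ℤ) - 2 : ℤ) : ℝ) + 1 / 2) + lo ≤ posK uu (X i + 6 * n))
    (hhi : posK uu (X i + 6 * n) ≤ posK uu (uu c + (((k.val : ℤ) - 2 : ℤ) : ℝ) + 1 / 2) + hi)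
    (h0 : 0 ≤ lo) (hK : hi < 12 * K) :
    lo ≤ (offK K c.val k.val (atK uu X i) : ℤ) ∧ (offK K c.val k.val (atK uu X i) : ℤ) ≤ hi := by
  have h2 := offK_of hm h1 c k (X := X) (i := i) (n := n)
    (d := posK uu (X i + 6 * n) - posK uu (uu c + (((k.val : ℤ) - 2 : ℤ) : ℝ) + 1 / 2))
    (by ring) (by omega) (by omega)
  rw [h2]
  rw [Int.toNat_of_nonneg (by omega)]
  omega

theorem ray_three (hm : StrictMono uu) (h1 : ∀ c c', uu c' < uu c + 1) (c : Fin K) (k : Fin 6)
    (r : ℤ) : posK uu (uu c + (((k.val : ℤ) - 2 + 3 * r : ℤ) : ℝ) + 1 / 2) =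
      posK uu (uu c + (((k.val : ℤ) - 2 : ℤ) : ℝ) + 1 / 2) + 6 * K * r := by
  rw [posK_ray hm h1, posK_ray hm h1]
  ring

theorem at_front (hm : StrictMono uu) (h1 : ∀ c c', uu c' < uu c + 1)
    (h : ∃ n : ℤ, uu c + (k.val : ℝ) - 3 / 2 ≤ X i + 6 * n ∧
      X i + 6 * n ≤ uu c + (k.val : ℝ) + 3 / 2) : offK K c.val k.val (atK uu X i) ≤ 6 * K := by
  obtain ⟨n, h2, h3⟩ := h
  have hK : 0 < K := lt_of_le_of_lt (Nat.zero_le _) c.isLt
  have a1 := posK_mono (uu := uu) (show uu c + (((k.val : ℤ) - 2 : ℤ) : ℝ) + 1 / 2 ≤ X i + 6 * n by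
    rw [base_eq]; exact h2)
  have a2 := posK_mono (uu := uu) (show X i + 6 * n ≤
    uu c + (((k.val : ℤ) - 2 + 3 * 1 : ℤ) : ℝ) + 1 / 2 by push_cast; linarith)
  rw [ray_three hm h1] at a2
  have := (off_range hm h1 (n := n) (lo := 0) (hi := 6 * K) (by linarith) (by linarith) le_rfl
    (by omega)).2
  omega

theorem at_back (hm : StrictMono uu) (h1 : ∀ c c', uu c' < uu c + 1)
    (h : ∃ n : ℤ, uu c + (k.val : ℝ) + 3 / 2 ≤ X i + 6 * n ∧
      X i + 6 * n ≤ uu c + (k.val : ℝ) + 9 / 2) :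
    offK K c.val k.val (atK uu X i) = 0 ∨ 6 * K ≤ offK K c.val k.val (atK uu X i) := by
  obtain ⟨n, h2, h3⟩ := h
  have hK : 0 < K := lt_of_le_of_lt (Nat.zero_le _) c.isLt
  have a1 := posK_mono (uu := uu) (show uu c + (((k.val : ℤ) - 2 + 3 * 1 : ℤ) : ℝ) + 1 / 2 ≤
    X i + 6 * n by push_cast; linarith)
  have a2 := posK_mono (uu := uu) (show X i + 6 * n ≤
    uu c + (((k.val : ℤ) - 2 + 3 * 2 : ℤ) : ℝ) + 1 / 2 by push_cast; linarith)
  rw [ray_three hm h1] at a1 a2
  rcases a2.eq_or_lt with h5 | h5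
  · left
    have h6 := posK_six (uu := uu) (X i) n
    have h7 := posK_six (uu := uu) (X i) (n - 1)
    have h8 : X i + 6 * ((n - 1 : ℤ) : ℝ) = X i + 6 * (n : ℝ) - 6 := by push_cast; ring
    have := (off_range hm h1 (c := c) (k := k) (X := X) (i := i) (n := n - 1) (lo := 0) (hi := 0)
      (by rw [h7]; linarith) (by rw [h7]; linarith) le_rfl (by omega))
    omega
  · right
    have := (off_range hm h1 (n := n) (lo := 6 * K) (hi := 12 * K - 1) (by linarith)
      (by linarith) (by omega) (by omega)).1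
    omega

theorem at_front_left (hm : StrictMono uu) (h1 : ∀ c c', uu c' < uu c + 1)
    (h : ∃ n : ℤ, uu c + (k.val : ℝ) - 3 / 2 ≤ X i + 6 * n ∧
      X i + 6 * n < uu c + (k.val : ℝ) + 3 / 2) : offK K c.val k.val (atK uu X i) < 6 * K := by
  obtain ⟨n, h2, h3⟩ := h
  have hK : 0 < K := lt_of_le_of_lt (Nat.zero_le _) c.isLt
  have a1 := posK_mono (uu := uu) (show uu c + (((k.val : ℤ) - 2 : ℤ) : ℝ) + 1 / 2 ≤ X i + 6 * n by
    rw [base_eq]; exact h2)
  have a2 := posK_lt_ray (uu := uu) (c := c) (m := (k.val : ℤ) - 2 + 3 * 1) (x := X i + 6 * n)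
    (by push_cast; linarith)
  rw [ray_three hm h1] at a2
  have := (off_range hm h1 (n := n) (lo := 0) (hi := 6 * K - 1) (by linarith) (by linarith) le_rfl
    (by omega)).2
  omega

theorem at_front_right (hm : StrictMono uu) (h1 : ∀ c c', uu c' < uu c + 1)
    (h : ∃ n : ℤ, uu c + (k.val : ℝ) - 3 / 2 < X i + 6 * n ∧
      X i + 6 * n ≤ uu c + (k.val : ℝ) + 3 / 2) :
    0 < offK K c.val k.val (atK uu X i) ∧ offK K c.val k.val (atK uu X i) ≤ 6 * K := by
  obtain ⟨n, h2, h3⟩ := h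
  have hK : 0 < K := lt_of_le_of_lt (Nat.zero_le _) c.isLt
  have a1 := posK_ray_lt (uu := uu) (c := c) (m := (k.val : ℤ) - 2) (x := X i + 6 * n)
    (by rw [base_eq]; exact h2)
  have a2 := posK_mono (uu := uu) (show X i + 6 * n ≤
    uu c + (((k.val : ℤ) - 2 + 3 * 1 : ℤ) : ℝ) + 1 / 2 by push_cast; linarith)
  rw [ray_three hm h1] at a2
  have := off_range hm h1 (n := n) (lo := 1) (hi := 6 * K) (by linarith) (by linarith) (by omega)
    (by omega)
  omega

theorem at_back_left (hm : StrictMono uu) (h1 : ∀ c c', uu c' < uu c + 1)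
    (h : ∃ n : ℤ, uu c + (k.val : ℝ) + 3 / 2 ≤ X i + 6 * n ∧
      X i + 6 * n < uu c + (k.val : ℝ) + 9 / 2) : 6 * K ≤ offK K c.val k.val (atK uu X i) := by
  obtain ⟨n, h2, h3⟩ := h
  have hK : 0 < K := lt_of_le_of_lt (Nat.zero_le _) c.isLt
  have a1 := posK_mono (uu := uu) (show uu c + (((k.val : ℤ) - 2 + 3 * 1 : ℤ) : ℝ) + 1 / 2 ≤
    X i + 6 * n by push_cast; linarith)
  have a2 := posK_lt_ray (uu := uu) (c := c) (m := (k.val : ℤ) - 2 + 3 * 2) (x := X i + 6 * n)
    (by push_cast; linarith)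
  rw [ray_three hm h1] at a1 a2
  have := (off_range hm h1 (n := n) (lo := 6 * K) (hi := 12 * K - 1) (by linarith)
    (by linarith) (by omega) (by omega)).1
  omega

theorem at_back_right (hm : StrictMono uu) (h1 : ∀ c c', uu c' < uu c + 1)
    (h : ∃ n : ℤ, uu c + (k.val : ℝ) + 3 / 2 < X i + 6 * n ∧
      X i + 6 * n ≤ uu c + (k.val : ℝ) + 9 / 2) :
    offK K c.val k.val (atK uu X i) = 0 ∨ 6 * K < offK K c.val k.val (atK uu X i) := by
  obtain ⟨n, h2, h3⟩ := h
  have hK : 0 < K := lt_of_le_of_lt (Nat.zero_le _) c.isLt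
  have a1 := posK_ray_lt (uu := uu) (c := c) (m := (k.val : ℤ) - 2 + 3 * 1) (x := X i + 6 * n)
    (by push_cast; linarith)
  have a2 := posK_mono (uu := uu) (show X i + 6 * n ≤
    uu c + (((k.val : ℤ) - 2 + 3 * 2 : ℤ) : ℝ) + 1 / 2 by push_cast; linarith)
  rw [ray_three hm h1] at a1 a2
  rcases a2.eq_or_lt with h5 | h5
  · left
    have h6 := posK_six (uu := uu) (X i) n
    have h7 := posK_six (uu := uu) (X i) (n - 1)
    have := (off_range hm h1 (c := c) (k := k) (X := X) (i := i) (n := n - 1) (lo := 0) (hi := 0)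
      (by rw [h7]; linarith) (by rw [h7]; linarith) le_rfl (by omega))
    omega
  · right
    have := (off_range hm h1 (n := n) (lo := 6 * K + 1) (hi := 12 * K - 1) (by linarith)
      (by linarith) (by omega) (by omega)).1
    omega

theorem atK_lt (hK : 0 < K) (X : Fin 6 → ℝ) (i : Fin 6) : atK uu X i < 12 * K := by
  unfold atK
  have hKz : (0 : ℤ) < 12 * (K : ℤ) := by omega
  have h1 := Int.emod_nonneg (posK uu (X i)) hKz.ne'
  have h2 := Int.emod_lt_of_pos (posK uu (X i)) hKz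
  omega

end Off

/-! ### The rules -/

/-- the position of the line of the slot `(c, k)` seen from the slot `(c', m)` : the sign of the
sine of `(uu c + k) - (uu c' + m)`, `d = k - m` -/
def sxK {K : ℕ} (c' c : Fin K) (d : Fin 6) : Bool :=
  if c' = c then (decide (d = 1) || decide (d = 2)) else if c' < c then sgc d else sgd d

/-- the centre of the lattice -/
def q0 (K : ℕ) : QK K := fun _ => (0, 0)

/-- **The rules at the centre** : sides at the slots of `z`, positions of the honest directions -/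
structure WK {K : ℕ} (TT : QK K → Fin 6 → Prop) (LT IN OUT : Fin K → Bool → QK K → Fin 6 → Fin 6 → Prop)
    (IC OC : Fin K → Fin 6 → Fin 6 → Prop) (at' : Fin 6 → ℕ) : Prop where
  at_lt : ∀ i, 0 < K → at' i < 12 * K
  ty : ∀ {c k i}, TT (stK c (q0 K) k) i → IC c k i ∨ OC c k i
  inz : ∀ {c σ k i}, IN c σ (q0 K) k i → IC c k i
  outz : ∀ {c σ k i}, OUT c σ (q0 K) k i → OC c k i
  atIC : ∀ {c : Fin K} {k i : Fin 6}, IC c k i → offK K c.val k.val (at' i) ≤ 6 * K
  atOC : ∀ {c : Fin K} {k i : Fin 6}, OC c k i →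
    offK K c.val k.val (at' i) = 0 ∨ 6 * K ≤ offK K c.val k.val (at' i)
  atI0 : ∀ {c : Fin K} {k i : Fin 6}, IN c false (q0 K) k i → offK K c.val k.val (at' i) < 6 * K
  atI1 : ∀ {c : Fin K} {k i : Fin 6}, IN c true (q0 K) k i →
    0 < offK K c.val k.val (at' i) ∧ offK K c.val k.val (at' i) ≤ 6 * K
  atO0 : ∀ {c : Fin K} {k i : Fin 6}, OUT c false (q0 K) k i → 6 * K ≤ offK K c.val k.val (at' i)
  atO1 : ∀ {c : Fin K} {k i : Fin 6}, OUT c true (q0 K) k i →
    offK K c.val k.val (at' i) = 0 ∨ 6 * K < offK K c.val k.val (at' i)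
  ltO : ∀ {c' c : Fin K} {σ : Bool} {q : QK K} {m k i : Fin 6}, stK c' q m = stK c (q0 K) k →
    (c' = c → k ≠ m ∧ k ≠ m + 3) → sxK c' c (k - m) = σ → LT c' σ q m i → OC c k i
  ltI : ∀ {c' c : Fin K} {σ : Bool} {q : QK K} {m k i : Fin 6}, stK c' q m = stK c (q0 K) k →
    (c' = c → k ≠ m ∧ k ≠ m + 3) → sxK c' c (k - m) ≠ σ → LT c' σ q m i → IC c k i
  opp : ∀ {c : Fin K} {σ : Bool} {q : QK K} {m k i : Fin 6}, stK c q m = stK c (q0 K) k →
    k = m + 3 → LT c σ q m i → OC c k i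

/-- the colour occurs inside the disc of `z` near the slot -/
def ICK {K : ℕ} (U : Fin 6 → Set ℂ) (z : ℂ) (uu : Fin K → ℝ) (c : Fin K) (k i : Fin 6) : Prop :=
  InnN U z (pt z (uu c + (k.val : ℝ))) i

/-- the colour occurs outside the disc of `z` near the slot -/
def OCK {K : ℕ} (U : Fin 6 → Set ℂ) (z : ℂ) (uu : Fin K → ℝ) (c : Fin K) (k i : Fin 6) : Prop :=
  OutN U z (pt z (uu c + (k.val : ℝ))) i

section Inst

variable {U : Fin 6 → Set ℂ} {T : ℂ → Set (Fin 6)} {K : ℕ} {uu : Fin K → ℝ}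
  {FF : Fin K → Bool → Ultrafilter ℝ} {z : ℂ} {X : Fin 6 → ℝ}

theorem lK_q0 (z : ℂ) (uu : Fin K → ℝ) : lK z uu (q0 K) = z := lK_zero z uu

/-- the sign table for the same class -/
theorem sin_same {k m : Fin 6} (h1 : k ≠ m) (h2 : k ≠ m + 3) (u : ℝ) :
    0 < sg (decide (k - m = 1) || decide (k - m = 2)) *
      Real.sin ((u + (k.val : ℝ) - (u + (m.val : ℝ))) * (Real.pi / 3)) := by
  obtain ⟨n, hn⟩ := fin_sub_cast m k
  have e : (u + (k.val : ℝ) - (u + (m.val : ℝ))) * (Real.pi / 3) =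
      ((k - m : Fin 6).val : ℝ) * (Real.pi / 3) + n * (2 * Real.pi) := by
    rw [show u + (k.val : ℝ) - (u + (m.val : ℝ)) = (k.val : ℝ) - (m.val : ℝ) by ring, hn]; ring
  rw [e, Real.sin_add_int_mul_two_pi]
  have hp := Real.pi_pos
  have hpos : ∀ y : ℝ, 0 < y → y < 3 → 0 < Real.sin (y * (Real.pi / 3)) := fun y hy hy3 =>
    Real.sin_pos_of_pos_of_lt_pi (by positivity) (by nlinarith)
  have hneg : ∀ y : ℝ, 3 < y → y < 6 → Real.sin (y * (Real.pi / 3)) < 0 := by
    intro y hy hy6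
    have e1 : y * (Real.pi / 3) = (y - 3) * (Real.pi / 3) + Real.pi := by ring
    rw [e1, Real.sin_add_pi]
    linarith [hpos (y - 3) (by linarith) (by linarith)]
  have key : ∀ k m : Fin 6, k ≠ m → k ≠ m + 3 →
      (k - m = 1 ∨ k - m = 2 ∨ k - m = 4 ∨ k - m = 5) := by decide
  rcases key k m h1 h2 with h | h | h | h
  · rw [h]
    show 0 < (1 : ℝ) * Real.sin (((1 : ℕ) : ℝ) * (Real.pi / 3))
    rw [one_mul]
    exact hpos _ (by norm_num) (by norm_num)
  · rw [h]
    show 0 < (1 : ℝ) * Real.sin (((2 : ℕ) : ℝ) * (Real.pi / 3))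
    rw [one_mul]
    exact hpos _ (by norm_num) (by norm_num)
  · rw [h]
    show 0 < (-1 : ℝ) * Real.sin (((4 : ℕ) : ℝ) * (Real.pi / 3))
    have := hneg (((4 : ℕ) : ℝ)) (by norm_num) (by norm_num)
    linarith
  · rw [h]
    show 0 < (-1 : ℝ) * Real.sin (((5 : ℕ) : ℝ) * (Real.pi / 3))
    have := hneg (((5 : ℕ) : ℝ)) (by norm_num) (by norm_num)
    linarith

/-- the sign table -/
theorem sin_sx (h : FrK U T uu FF) {c' c : Fin K} {k m : Fin 6}
    (hn : c' = c → k ≠ m ∧ k ≠ m + 3) :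
    0 < sg (sxK c' c (k - m)) *
      Real.sin ((uu c + (k.val : ℝ) - (uu c' + (m.val : ℝ))) * (Real.pi / 3)) := by
  obtain ⟨n, hn2⟩ := fin_sub_cast m k
  unfold sxK
  rcases lt_trichotomy c' c with h3 | h3 | h3
  · rw [if_neg h3.ne, if_pos h3]
    have h4 := sin_c (x := uu c - uu c') (by linarith [h.mono h3]) (by linarith [h.lt1 c' c]) (k - m)
    have e : (uu c + (k.val : ℝ) - (uu c' + (m.val : ℝ))) * (Real.pi / 3) =
        (uu c - uu c' + ((k - m : Fin 6).val : ℝ)) * (Real.pi / 3) + n * (2 * Real.pi) := by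
      rw [show uu c + (k.val : ℝ) - (uu c' + (m.val : ℝ)) =
        uu c - uu c' + ((k.val : ℝ) - (m.val : ℝ)) by ring, hn2]; ring
    rw [e, Real.sin_add_int_mul_two_pi]
    exact h4
  · subst h3
    rw [if_pos rfl]
    exact sin_same (hn rfl).1 (hn rfl).2 _
  · rw [if_neg h3.ne', if_neg (not_lt.2 h3.le)]
    have h4 := sin_dd (x := uu c' - uu c) (by linarith [h.mono h3]) (by linarith [h.lt1 c c'])
      (k - m)
    have e : (uu c + (k.val : ℝ) - (uu c' + (m.val : ℝ))) * (Real.pi / 3) =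
        (-(uu c' - uu c) + ((k - m : Fin 6).val : ℝ)) * (Real.pi / 3) + n * (2 * Real.pi) := by
      rw [show uu c + (k.val : ℝ) - (uu c' + (m.val : ℝ)) =
        -(uu c' - uu c) + ((k.val : ℝ) - (m.val : ℝ)) by ring, hn2]; ring
    rw [e, Real.sin_add_int_mul_two_pi]
    exact h4

theorem slot_eq {c' c : Fin K} {q : QK K} {m k : Fin 6} (he : stK c' q m = stK c (q0 K) k) :
    pt (lK z uu q) (uu c' + (m.val : ℝ)) = pt z (uu c + (k.val : ℝ)) := by
  rw [lK_step, he, ← lK_step, lK_q0]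

/-- **The instance** -/
theorem wk_of_frK (h : FrK U T uu FF) (hX : ∀ i, X i ∈ HD U z i) :
    WK (TK T z uu) (LK T z uu FF) (IK T z uu FF) (OK T z uu FF) (ICK U z uu) (OCK U z uu)
      (atK uu X) where
  at_lt := fun i hK => atK_lt hK X i
  ty := by
    intro c k i hi
    unfold TK at hi
    rw [← lK_step, lK_q0] at hi
    rcases out_or_inn h.irr.mx (z := z) (h.irr.sub _ hi) with h1 | h1
    · exact Or.inr h1
    · exact Or.inl h1
  inz := by
    intro c σ k i hi
    unfold IK at hi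
    rw [lK_q0] at hi
    exact innN_lim (h.fr c) hi
  outz := by
    intro c σ k i hi
    unfold OK at hi
    rw [lK_q0] at hi
    exact outN_lim (h.fr c) hi
  atIC := by
    intro c k i hi
    exact at_front h.mono h.lt1 (front_of_cos ((hX i _).2 hi))
  atOC := by
    intro c k i hi
    exact at_back h.mono h.lt1 (back_of_cos ((hX i _).1 hi))
  atI0 := by
    intro c k i hi
    unfold IK at hi
    rw [lK_q0] at hi
    have hi' : ∀ᶠ v in (FF c false : Filter ℝ), OccIn T (pt z (v + (k.val : ℝ)))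
      {x | dist x z < 1} i := hi
    obtain ⟨n, h1, h2⟩ := half_left (a := (k.val : ℝ) - 3 / 2) (x := X i) (h.fr c).left (by
      filter_upwards [hi'] with v hv
      obtain ⟨n, h1, h2⟩ := front_of_cos ((hX i _).2 (innN_of_occ h.irr hv))
      exact ⟨n, by linarith, by linarith⟩)
    exact at_front_left h.mono h.lt1 ⟨n, by linarith, by linarith⟩
  atI1 := by
    intro c k i hi
    unfold IK at hi
    rw [lK_q0] at hi
    have hi' : ∀ᶠ v in (FF c true : Filter ℝ), OccIn T (pt z (v + (k.val : ℝ)))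
      {x | dist x z < 1} i := hi
    obtain ⟨n, h1, h2⟩ := half_right (a := (k.val : ℝ) - 3 / 2) (x := X i) (h.fr c).right (by
      filter_upwards [hi'] with v hv
      obtain ⟨n, h1, h2⟩ := front_of_cos ((hX i _).2 (innN_of_occ h.irr hv))
      exact ⟨n, by linarith, by linarith⟩)
    exact at_front_right h.mono h.lt1 ⟨n, by linarith, by linarith⟩
  atO0 := by
    intro c k i hi
    unfold OK at hi
    rw [lK_q0] at hi
    have hi' : ∀ᶠ v in (FF c false : Filter ℝ), OccIn T (pt z (v + (k.val : ℝ)))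
      {x | 1 < dist x z} i := hi
    obtain ⟨n, h1, h2⟩ := half_left (a := (k.val : ℝ) + 3 / 2) (x := X i) (h.fr c).left (by
      filter_upwards [hi'] with v hv
      obtain ⟨n, h1, h2⟩ := back_of_cos ((hX i _).1 (outN_of_occ h.irr hv))
      exact ⟨n, by linarith, by linarith⟩)
    exact at_back_left h.mono h.lt1 ⟨n, by linarith, by linarith⟩
  atO1 := by
    intro c k i hi
    unfold OK at hi
    rw [lK_q0] at hi
    have hi' : ∀ᶠ v in (FF c true : Filter ℝ), OccIn T (pt z (v + (k.val : ℝ)))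
      {x | 1 < dist x z} i := hi
    obtain ⟨n, h1, h2⟩ := half_right (a := (k.val : ℝ) + 3 / 2) (x := X i) (h.fr c).right (by
      filter_upwards [hi'] with v hv
      obtain ⟨n, h1, h2⟩ := back_of_cos ((hX i _).1 (outN_of_occ h.irr hv))
      exact ⟨n, by linarith, by linarith⟩)
    exact at_back_right h.mono h.lt1 ⟨n, by linarith, by linarith⟩
  ltO := by
    intro c' c σ q m k i he hn hs hl
    have h1 := sin_sx h (c' := c') (c := c) (k := k) (m := m) hn
    rw [hs] at h1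
    exact out_of_lt (h.fr c') hl (slot_eq he) h1
  ltI := by
    intro c' c σ q m k i he hn hs hl
    have h1 := sin_sx h (c' := c') (c := c) (k := k) (m := m) hn
    have h2 : sg (sxK c' c (k - m)) = -sg σ := by
      revert hs
      cases sxK c' c (k - m) <;> cases σ <;> simp [sg]
    rw [h2] at h1
    exact inn_of_lt (h.fr c') hl (slot_eq he) (by linarith)
  opp := by
    intro c σ q m k i he hk hl
    have h1 := slot_eq (z := z) (uu := uu) he
    refine out_of_opp (h.fr c) hl h1 ?_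
    have h2 : pt (lK z uu q) (uu c + (m.val : ℝ)) + pt (lK z uu q) (uu c + (m.val : ℝ)) =
        lK z uu q + z := by
      have e1 : pt (lK z uu q) (uu c + (m.val : ℝ)) =
        lK z uu q + cis ((uu c + (m.val : ℝ)) * (Real.pi / 3)) := rfl
      have e2 : pt (lK z uu q) (uu c + (m.val : ℝ)) =
        z + cis ((uu c + (k.val : ℝ)) * (Real.pi / 3)) := h1
      have e3 : cis ((uu c + (k.val : ℝ)) * (Real.pi / 3)) =
          -cis ((uu c + (m.val : ℝ)) * (Real.pi / 3)) := by
        obtain ⟨n, hn⟩ := fin_sub_cast m k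
        have key : ∀ a : Fin 6, a + 3 - a = 3 := by decide
        have hk' : (k - m : Fin 6) = 3 := by rw [hk]; exact key m
        rw [hk'] at hn
        have e4 : (uu c + (k.val : ℝ)) * (Real.pi / 3) =
            (uu c + (m.val : ℝ)) * (Real.pi / 3) + Real.pi + n * (2 * Real.pi) := by
          have : (k.val : ℝ) = (m.val : ℝ) + 3 + 6 * n := by
            have h3 : (((3 : Fin 6).val : ℕ) : ℝ) = 3 := by norm_num
            linarith
          rw [this]; ring
        apply Complex.ext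
        · rw [cis_re, Complex.neg_re, cis_re, e4, Real.cos_add_int_mul_two_pi, Real.cos_add_pi]
        · rw [cis_im, Complex.neg_im, cis_im, e4, Real.sin_add_int_mul_two_pi, Real.sin_add_pi]
      rw [e3] at e2
      linear_combination e1 + e2
    linear_combination -h2

end Inst

end Vale.Agent.P032.H617
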