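import Vale.Agent.P032.H617.EndHD
import Vale.Agent.P032.H617.BD.Main
import Vale.Agent.P032.H623.BrInv
import Vale.Agent.P032.H437.Wt.Main
import Vale.Agent.P032.H437.Kill2

/-!
# P032: the bridge for the 96 events, and the end for windows with honest ends

`bridge617`, `kill617`; `end617` : what remains is the end without swaps and conveyors.
-/

namespace Vale.Agent.P032.H617.BrEnd

open Vale.Agent.P032.Six Vale.Agent.P032.H429 Vale.Agent.P032.H617.EndHD

theorem bridge617 : Bridge H437.Ev2.evs := fun _ _ h h1 h2 =>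
  H623.bridge_of' BD.hS617 (fun _ _ _ hq _ _ h3 h4 => H437.Wt.witL hq h3 h4) h h1 h2

theorem kill617 : Kill2 H437.Ev2.evs := fun _ _ _ _ _ h hmin h6 w hD =>
  H437.kill2_hd h hmin h6 w hD

theorem end617 (E : EndNs) : End6HD := endHD_of kill617 bridge617 E

end Vale.Agent.P032.H617.BrEnd
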