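import Vale.Agent.P032.H617.TAng
import Vale.Agent.P032.H437.Fr2s

/-!
# P032: the frame for finitely many times (any number of classes)

`κ` is a linear order of classes, `τ : κ → ℝ` the times (units of 60 degrees), strictly increasing and
within one unit.  `FrK` has a frame `Fr` at each of them.  The slots of a centre `w : ℂ` are
`pt w (τ c + j)`.  All families at every centre, the sweep between any two classes, the palette
rules for any two slots, and the lattice points `lk z τ q`, `q : κ → ℤ × ℤ`.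
-/

open Set Filter Topology Metric

noncomputable section

namespace Vale.Agent.P032.H617

open Vale.Agent.P032.Six Vale.Agent.P032.S5.H767 Vale.Agent.P032.S5.H122 Vale.Agent.P032.H437

/-- **the frame for several times** -/
structure FrK (U : Fin 6 → Set ℂ) (T : ℂ → Set (Fin 6)) {κ : Type} [LinearOrder κ] (τ : κ → ℝ)
    (F : κ → Bool → Ultrafilter ℝ) : Prop where
  irr : Irr U T
  fr : ∀ c, Fr U T (τ c) (F c)
  mono : StrictMono τ
  lt1 : ∀ c c', τ c' < τ c + 1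

/-- the sign of the sweep from the class `c` to the class `c'` (`true` = out) -/
def sgK {κ : Type} [LinearOrder κ] (c c' : κ) (d : Fin 6) (σ₂ : Bool) : Bool :=
  if c = c' then sgn d σ₂ else if c < c' then sgc d else sgd d

/-- the slots are not parallel -/
def NpK {κ : Type} [LinearOrder κ] (c c' : κ) (j k : Fin 6) : Prop :=
  c ≠ c' ∨ (k ≠ j ∧ k ≠ j + 3)

instance {κ : Type} [LinearOrder κ] (c c' : κ) (j k : Fin 6) : Decidable (NpK c c' j k) := by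
  unfold NpK; infer_instance

namespace FrK

variable {U : Fin 6 → Set ℂ} {T : ℂ → Set (Fin 6)} {κ : Type} [LinearOrder κ] {τ : κ → ℝ}
  {F : κ → Bool → Ultrafilter ℝ} {w : ℂ} {c c' : κ} {σ : Bool} {i j k : Fin 6}

theorem npar (h : FrK U T τ F) (hn : NpK c c' j k) :
    Npar (τ c + (j.val : ℝ)) (τ c' + (k.val : ℝ)) := by
  by_cases hc : c = c'
  · subst hc
    rcases hn with hn | hn
    · exact absurd rfl hn
    · exact npar_fin (τ c) hn.1 hn.2
  · rcases lt_or_gt_of_ne hc with h1 | h1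
    · exact npar_two (h.mono h1) (h.lt1 c c') j k
    · exact (npar_two (h.mono h1) (h.lt1 c' c) k j).symm

theorem gen (h : FrK U T τ F) (hc : c' ≠ c) (k : Fin 6) (n : ℤ) :
    τ c' + (k.val : ℝ) ≠ τ c + n := by
  intro h2
  have h3 := h.npar (c := c) (c' := c') (j := 0) (k := k) (Or.inl hc.symm)
  have h4 : ∀ m : ℤ, τ c' - τ c ≠ (m : ℝ) := by
    intro m hm
    have a1 := h.lt1 c c'
    have a2 := h.lt1 c' c
    have a3 : τ c' ≠ τ c := fun e => hc (h.mono.injective e)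
    have b1 : ((m : ℤ) : ℝ) < 1 := by linarith
    have b2 : (-1 : ℝ) < ((m : ℤ) : ℝ) := by linarith
    have b3 : m < 1 := by exact_mod_cast b1
    have b4 : (-1 : ℤ) < m := by exact_mod_cast b2
    have b5 : m = 0 := by omega
    rw [b5] at hm
    push_cast at hm
    exact a3 (by linarith)
  refine h4 (n - (k.val : ℤ)) ?_
  push_cast
  linarith

/-! ### The letters -/

/-- **F1** -/
theorem memb (h : FrK U T τ F) (hl : i ∈ lt (F c σ) T w (j.val : ℝ)) :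
    i ∈ T (pt w (τ c + (j.val : ℝ))) := (h.fr c).memb_w hl

/-- **F2** -/
theorem ne_in (h : FrK U T τ F) (c : κ) (σ : Bool) (w : ℂ) (j : Fin 6) :
    ∃ i, Inn (F c σ) T w (j.val : ℝ) i := exists_inn h.irr _ _

/-- **F2** -/
theorem ne_out (h : FrK U T τ F) (c : κ) (σ : Bool) (w : ℂ) (j : Fin 6) :
    ∃ i, Out (F c σ) T w (j.val : ℝ) i := exists_out h.irr _ _

theorem in_let (h : FrK U T τ F) (hi : Inn (F c σ) T w (j.val : ℝ) i) :
    i ∈ lt (F c σ) T w (j.val : ℝ) := Inn.mem h.irr hi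

theorem out_let (h : FrK U T τ F) (hi : Out (F c σ) T w (j.val : ℝ) i) :
    i ∈ lt (F c σ) T w (j.val : ℝ) := Out.mem h.irr hi

theorem let_side (h : FrK U T τ F) (hl : i ∈ lt (F c σ) T w (j.val : ℝ)) :
    Inn (F c σ) T w (j.val : ℝ) i ∨ Out (F c σ) T w (j.val : ℝ) i := (h.fr c).side_w hl

/-- **F8** -/
theorem sixty (h : FrK U T τ F) (hl : i ∈ lt (F c σ) T w (j.val : ℝ)) :
    i ∉ lt (F c σ) T w ((j + 1 : Fin 6).val : ℝ) := (h.fr c).sixty_w hl

/-- **F9** : the neighbour may be of any class -/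
theorem product (h : FrK U T τ F) (c' : κ) (k : Fin 6) (hl : i ∈ lt (F c σ) T w (j.val : ℝ)) :
    i ∉ lt (F c σ) T (pt w (τ c' + (k.val : ℝ))) (j.val : ℝ) := by
  by_cases hc : c' = c
  · rw [hc]
    exact (h.fr c).product_slot k hl
  · exact (h.fr c).product_slot' (fun n => h.gen hc k n) hl

/-- **F6, F7** (strong), between any two classes -/
theorem sweep (h : FrK U T τ F) (c c' : κ) (σ σ₂ : Bool) (w : ℂ) (k j : Fin 6) :
    (sgK c c' (j - k) σ₂ = σ → ∃ i, i ∉ lt (F c σ) T w (k.val : ℝ) ∧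
      Out (F c' σ₂) T (pt w (τ c + (k.val : ℝ))) (j.val : ℝ) i) ∧
    (sgK c c' (j - k) σ₂ ≠ σ → ∃ i, i ∉ lt (F c σ) T w (k.val : ℝ) ∧
      Inn (F c' σ₂) T (pt w (τ c + (k.val : ℝ))) (j.val : ℝ) i) := by
  unfold sgK
  by_cases hc : c = c'
  · subst hc
    rw [if_pos rfl]
    exact (h.fr c).same_w σ σ₂ w k j
  · rw [if_neg hc]
    by_cases hlt : c < c'
    · rw [if_pos hlt]
      exact (h.fr c).up_w (h.fr c') (h.mono hlt) (h.lt1 c c') σ σ₂ w k j
    · have hgt : c' < c := lt_of_le_of_ne (not_lt.1 hlt) (Ne.symm hc)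
      rw [if_neg hlt]
      exact (h.fr c').down_w (h.fr c) (h.mono hgt) (h.lt1 c' c) σ σ₂ w k j

theorem sweep_out (h : FrK U T τ F) (c c' : κ) (σ σ₂ : Bool) (w : ℂ) (k j : Fin 6)
    (hs : sgK c c' (j - k) σ₂ = σ) : ∃ i, i ∉ lt (F c σ) T w (k.val : ℝ) ∧
      Out (F c' σ₂) T (pt w (τ c + (k.val : ℝ))) (j.val : ℝ) i := (h.sweep c c' σ σ₂ w k j).1 hs

theorem sweep_inn (h : FrK U T τ F) (c c' : κ) (σ σ₂ : Bool) (w : ℂ) (k j : Fin 6)
    (hs : sgK c c' (j - k) σ₂ ≠ σ) : ∃ i, i ∉ lt (F c σ) T w (k.val : ℝ) ∧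
      Inn (F c' σ₂) T (pt w (τ c + (k.val : ℝ))) (j.val : ℝ) i := (h.sweep c c' σ σ₂ w k j).2 hs

/-! ### The palettes -/

/-- **F13** -/
theorem notsub (h : FrK U T τ F) (w : ℂ) (c : κ) (j : Fin 6) :
    4 ≤ (T w).ncard ∨ ∃ i, i ∈ T (pt w (τ c + (j.val : ℝ))) ∧ i ∉ T w := notsub_pt h.irr w _

/-- **F14** -/
theorem third (h : FrK U T τ F) (w : ℂ) (hn : NpK c c' j k) {t : Fin 6}
    (ht : t ∈ T (pt (pt w (τ c + (j.val : ℝ))) (τ c' + (k.val : ℝ)))) :
    4 ≤ (T w).ncard ∨ ∃ i, i ≠ t ∧ i ∈ T (pt w (τ c + (j.val : ℝ))) ∧ i ∉ T w :=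
  third_ang h.irr w (h.npar hn) ht

/-- **F12** -/
theorem lemmaB (h : FrK U T τ F) (w : ℂ) (hn : NpK c c' j k) {a b : Fin 6}
    (ha : a ∈ T (pt w (τ c + (j.val : ℝ)))) (hb : b ∈ T (pt w (τ c' + (k.val : ℝ)))) :
    ∃ i ∈ T w, i ≠ a ∧ i ≠ b := lemmaB_ang h.irr w (h.npar hn) ha hb

/-- **le1** -/
theorem le1 (h : FrK U T τ F) (w : ℂ) {a : Fin 6} (ha : a ∈ T (pt w (τ c + (j.val : ℝ)))) :
    ∃ i ∈ T w, i ≠ a := le1_pt h.irr w _ ha

theorem dist_next (w : ℂ) (u : ℝ) (j : Fin 6) :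
    dist (pt w (u + (j.val : ℝ))) (pt w (u + ((j + 1 : Fin 6).val : ℝ))) = 1 := by
  rw [← lp_slot, ← lp_slot]
  exact dist_step_next 0 0 j

/-- **common** -/
theorem common (h : FrK U T τ F) (h5 : 5 ≤ (T w).ncard) {a b : Fin 6} (hab : a ≠ b)
    (ha : a ∈ T (pt w (τ c + (j.val : ℝ)))) (hb : b ∈ T (pt w (τ c + (j.val : ℝ))))
    (ha' : a ∈ T (pt w (τ c + ((j + 1 : Fin 6).val : ℝ))))
    (hb' : b ∈ T (pt w (τ c + ((j + 1 : Fin 6).val : ℝ)))) :
    4 ≤ (T (pt w (τ c + (j.val : ℝ)))).ncard ∨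
      4 ≤ (T (pt w (τ c + ((j + 1 : Fin 6).val : ℝ)))).ncard :=
  common_aux h.irr (dist_pt _ _) (dist_pt _ _) (dist_next w (τ c) j) h5 hab ha hb ha' hb'

end FrK

/-! ### Existence -/

theorem exists_frk_of {U : Fin 6 → Set ℂ} {T : ℂ → Set (Fin 6)} {κ : Type} [LinearOrder κ]
    {τ : κ → ℝ} (h : Irr U T) (hm : StrictMono τ) (h1 : ∀ c c', τ c' < τ c + 1)
    {A : κ → Bool → Set ℝ}
    (hA : ∀ c, ∃ᶠ v in 𝓝[<] (τ c), ∀ᶠ v' in 𝓝 v, v' ∈ A c false)
    (hA' : ∀ c, ∃ᶠ v in 𝓝[>] (τ c), ∀ᶠ v' in 𝓝 v, v' ∈ A c true) :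
    ∃ F : κ → Bool → Ultrafilter ℝ, FrK U T τ F ∧ ∀ c σ, A c σ ∈ F c σ := by
  choose F hF h2 h3 using fun c => exists_fr_of (u := τ c) h (hA c) (hA' c)
  refine ⟨F, ⟨h, hF, hm, h1⟩, ?_⟩
  intro c σ
  cases σ
  · exact h2 c
  · exact h3 c

/-! ### The lattice -/

section Lattice

variable {κ : Type} [Fintype κ] [DecidableEq κ]

/-- the lattice points -/
def lk (z : ℂ) (τ : κ → ℝ) (q : κ → ℤ × ℤ) : ℂ := z + ∑ c, lp 0 (τ c) (q c).1 (q c).2

/-- a step of the class `c` -/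
def stk (c : κ) (q : κ → ℤ × ℤ) (j : Fin 6) : κ → ℤ × ℤ :=
  Function.update q c ((q c).1 + dx j, (q c).2 + dy j)

theorem lk_zero (z : ℂ) (τ : κ → ℝ) : lk z τ (fun _ => (0, 0)) = z := by
  unfold lk
  simp [lp_zero]

/-- **the slots of a lattice point** -/
theorem lk_step (z : ℂ) (τ : κ → ℝ) (q : κ → ℤ × ℤ) (c : κ) (j : Fin 6) :
    pt (lk z τ q) (τ c + (j.val : ℝ)) = lk z τ (stk c q j) := by
  unfold lk stk
  rw [← Finset.add_sum_erase _ _ (Finset.mem_univ c)]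
  rw [← Finset.add_sum_erase _ (fun c' => lp 0 (τ c')
    (Function.update q c ((q c).1 + dx j, (q c).2 + dy j) c').1
    (Function.update q c ((q c).1 + dx j, (q c).2 + dy j) c').2) (Finset.mem_univ c)]
  have h1 : ∑ c' ∈ Finset.univ.erase c, lp 0 (τ c')
      (Function.update q c ((q c).1 + dx j, (q c).2 + dy j) c').1
      (Function.update q c ((q c).1 + dx j, (q c).2 + dy j) c').2 =
      ∑ c' ∈ Finset.univ.erase c, lp 0 (τ c') (q c').1 (q c').2 := by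
    refine Finset.sum_congr rfl fun c' hc' => ?_
    rw [Function.update_of_ne (Finset.ne_of_mem_erase hc')]
  rw [h1, Function.update_self]
  have h2 := lp_step 0 (τ c) (q c).1 (q c).2 j
  unfold pt at h2 ⊢
  rw [← h2]
  ring

theorem dist_lk (z : ℂ) (τ : κ → ℝ) (q : κ → ℤ × ℤ) (c : κ) (j : Fin 6) :
    dist (lk z τ (stk c q j)) (lk z τ q) = 1 := by
  rw [← lk_step]; exact dist_pt _ _

end Lattice

end Vale.Agent.P032.H617
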