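import Vale.Agent.P032.H989.Iso
import Vale.Agent.P032.H448.Win
import Vale.Agent.P032.H266.FamZ
import Vale.Agent.P032.H314.NoSucc

/-!
# P032: mirror images of a centre with windows

`mU U`, `mT T` : the mirror images of the colours and palettes (complex conjugation `cj`), centre
`cj z`, windows `mN R`, `mN L` (`mN L i = - L i`).  `mir_irr`, `mir_lc`, `mir_dr`, `mir_sd`,
`mir_dir`, `mir_side`, `mir_hd`, `mir_pe`, `mir_hull`, `mir_wins`, `mir_winData` : the mirror images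
of the notions used for the windowed centre; `mir_G` : the generic times; `mir_inn`, `mir_out` : the
sides of the windows at a time off `M`; `mir_hold` : the columns (`mirC A j = A (-j)`).
-/

open Set Filter Topology Metric

noncomputable section

namespace Vale.Agent.P032.H617

open Vale.Agent.P032.Six Vale.Agent.P032.Sweep Vale.Agent.P032.S5.H767 Vale.Agent.P032.S5.H122
  Vale.Agent.P032.H158 Vale.Agent.P032.H429 Vale.Agent.P032.H448 Vale.Agent.P032.H266
  Vale.Agent.P032.H314 Vale.Agent.P032.H989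

/-- the mirror images of the colours -/
def mU (U : Fin 6 → Set ℂ) : Fin 6 → Set ℂ := fun i => cj ⁻¹' U i

/-- the mirror images of the palettes -/
def mT (T : ℂ → Set (Fin 6)) : ℂ → Set (Fin 6) := fun x => T (cj x)

/-- the mirror image of a family of window ends -/
def mN (L : Fin 6 → ℝ) : Fin 6 → ℝ := fun i => - L i

variable {U : Fin 6 → Set ℂ} {T : ℂ → Set (Fin 6)} {z : ℂ} {L R : Fin 6 → ℝ} {i : Fin 6}

theorem mN_mN (L : Fin 6 → ℝ) : mN (mN L) = L := by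
  funext i; exact neg_neg _

theorem mT_mT (T : ℂ → Set (Fin 6)) : mT (mT T) = T := by
  funext x
  show T (cj (cj x)) = T x
  rw [cj_cj]

theorem mU_mU (U : Fin 6 → Set ℂ) : mU (mU U) = U := by
  funext i; ext x
  show cj (cj x) ∈ U i ↔ x ∈ U i
  rw [cj_cj]

theorem mir_irr (h : Irr U T) : Irr (mU U) (mT T) := h.iso989 cj

theorem mir_mx (h : Mx U) : Mx (mU U) := h.iso989 cj

theorem mT_cj (T : ℂ → Set (Fin 6)) (x : ℂ) : mT T (cj x) = T x := by
  show T (cj (cj x)) = T x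
  rw [cj_cj]

theorem cj_pt' (z : ℂ) (t : ℝ) : cj (pt (cj z) t) = pt z (-t) := by
  rw [cj_pt, cj_cj]

theorem mT_pt (T : ℂ → Set (Fin 6)) (z : ℂ) (t : ℝ) : mT T (pt (cj z) t) = T (pt z (-t)) := by
  show T (cj (pt (cj z) t)) = _
  rw [cj_pt']

theorem mir_pal (U : Fin 6 → Set ℂ) (x : ℂ) : Pal (mU U) x = Pal U (cj x) := Pal_iso989 cj x

theorem mir_pal_pt (U : Fin 6 → Set ℂ) (z : ℂ) (t : ℝ) :
    Pal (mU U) (pt (cj z) t) = Pal U (pt z (-t)) := by
  rw [mir_pal, cj_pt']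

theorem cj_add (a b : ℂ) : cj (a + b) = cj a + cj b := map_add (starRingEnd ℂ) a b

theorem cj_sub (a b : ℂ) : cj (a - b) = cj a - cj b := map_sub (starRingEnd ℂ) a b

theorem cj_mul (a b : ℂ) : cj (a * b) = cj a * cj b := map_mul (starRingEnd ℂ) a b

theorem cj_real (r : ℝ) : cj (r : ℂ) = (r : ℂ) := Complex.conj_ofReal r

theorem cj_neg (a : ℂ) : cj (-a) = -cj a := map_neg (starRingEnd ℂ) a

theorem ip_cj (a b : ℂ) : ip (cj a) (cj b) = ip a b := by
  show ((starRingEnd ℂ) a).re * ((starRingEnd ℂ) b).re +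
    ((starRingEnd ℂ) a).im * ((starRingEnd ℂ) b).im = _
  rw [Complex.conj_re, Complex.conj_re, Complex.conj_im, Complex.conj_im]
  unfold ip
  ring

theorem norm_cj (a : ℂ) : ‖cj a‖ = ‖a‖ := Complex.norm_conj a

theorem freq_cj {p : ℂ → Prop} {y : ℂ} : (∃ᶠ w in 𝓝 (cj y), p (cj w)) ↔ ∃ᶠ w in 𝓝 y, p w := by
  constructor
  · intro h
    refine (freq_iso989 cj h).mono fun w hw => ?_
    rwa [cj_cj] at hw
  · intro h
    refine freq_iso989 (x := cj y) cj ?_
    rw [cj_cj]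
    exact h

theorem ev_cj {p : ℂ → Prop} {y : ℂ} : (∀ᶠ w in 𝓝 (cj y), p (cj w)) ↔ ∀ᶠ w in 𝓝 y, p w := by
  have h := not_congr (freq_cj (p := fun w => ¬ p w) (y := y))
  simpa only [not_frequently, not_not] using h

/-! ### Times -/

theorem ev_neg {p : ℝ → Prop} {s : ℝ} : (∀ᶠ v in 𝓝 s, p (-v)) ↔ ∀ᶠ v in 𝓝 (-s), p v := by
  constructor
  · intro h
    have h1 : Tendsto (fun v : ℝ => -v) (𝓝 (-s)) (𝓝 s) := by
      have := continuous_neg.tendsto (-s)
      rwa [neg_neg] at this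
    filter_upwards [h1.eventually h] with v hv
    rwa [neg_neg] at hv
  · intro h
    exact (continuous_neg.tendsto s).eventually h

theorem mir_lc {s : ℝ} : s ∈ Lc (mT T) (cj z) ↔ -s ∈ Lc T z := by
  show (∀ᶠ v in 𝓝 s, mT T (pt (cj z) v) = mT T (pt (cj z) s)) ↔
    ∀ᶠ v in 𝓝 (-s), T (pt z v) = T (pt z (-s))
  simp only [mT_pt]
  exact ev_neg (p := fun v => T (pt z v) = T (pt z (-s)))

theorem neg_val (j : Fin 6) : (((-j : Fin 6).val : ℕ) : ℤ) = -(j.val : ℤ) ∨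
    (((-j : Fin 6).val : ℕ) : ℤ) = -(j.val : ℤ) + 6 := by
  revert j; decide

theorem neg_val_cast (j : Fin 6) : (((-j : Fin 6).val : ℕ) : ZMod 6) = -(j.val : ZMod 6) := by
  revert j; decide

theorem neg_slot (t : ℝ) (j : Fin 6) : -(t + (j.val : ℝ)) = -t + (((-j : Fin 6).val : ℕ) : ℝ) ∨
    -(t + (j.val : ℝ)) + 6 = -t + (((-j : Fin 6).val : ℕ) : ℝ) := by
  rcases neg_val j with h | h
  · left
    have : (((-j : Fin 6).val : ℕ) : ℝ) = -(j.val : ℝ) := by exact_mod_cast h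
    rw [this]; ring
  · right
    have : (((-j : Fin 6).val : ℕ) : ℝ) = -(j.val : ℝ) + 6 := by exact_mod_cast h
    rw [this]; ring

theorem pt_neg_slot (z : ℂ) (t : ℝ) (j : Fin 6) :
    pt z (-(t + (j.val : ℝ))) = pt z (-t + (((-j : Fin 6).val : ℕ) : ℝ)) := by
  rcases neg_slot t j with h | h
  · rw [h]
  · rw [← h, pt_six]

theorem lc_neg_slot (t : ℝ) (j : Fin 6) :
    -(t + (j.val : ℝ)) ∈ Lc T z ↔ -t + (((-j : Fin 6).val : ℕ) : ℝ) ∈ Lc T z := by
  rcases neg_slot t j with h | h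
  · rw [h]
  · rw [← h, Lc_per]

theorem mir_L0 {t : ℝ} : t ∈ WinData.L0 (mT T) (cj z) ↔ -t ∈ WinData.L0 T z := by
  constructor
  · intro h j
    have h1 := mir_lc.1 (h (-j))
    have h2 := (lc_neg_slot (T := T) (z := z) t (-j)).1 h1
    rwa [neg_neg] at h2
  · intro h j
    exact mir_lc.2 ((lc_neg_slot t j).2 (h (-j)))

theorem mir_M {t : ℝ} : t ∈ WinData.M (mN R) (mN L) ↔ -t ∈ WinData.M L R := by
  constructor
  · rintro ⟨i, n, h | h⟩
    · refine ⟨i, -3 - n, Or.inr ?_⟩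
      have h : -R i = t + 3 / 2 + n := h
      push_cast; linarith
    · refine ⟨i, -3 - n, Or.inl ?_⟩
      have h : -L i = t + 3 / 2 + n := h
      push_cast; linarith
  · rintro ⟨i, n, h | h⟩
    · refine ⟨i, -3 - n, Or.inr ?_⟩
      show -L i = _
      push_cast; linarith
    · refine ⟨i, -3 - n, Or.inl ?_⟩
      show -R i = _
      push_cast; linarith

/-- **the generic times of the mirror image** -/
theorem mir_G {t : ℝ} : t ∈ WinData.G (mT T) (cj z) (mN R) (mN L) ↔ -t ∈ WinData.G T z L R :=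
  and_congr mir_L0 (not_congr mir_M)

/-! ### Directions -/

theorem mir_ray {V : Set ℂ} {u : ℂ} : Ray (cj ⁻¹' V) (cj z) (cj u) ↔ Ray V z u := by
  have e : ∀ r : ℝ, cj (cj z + r * cj u) = z + r * u := by
    intro r
    rw [cj_add, cj_mul, cj_cj, cj_cj, cj_real]
  unfold Ray
  refine eventually_congr (Eventually.of_forall fun r => ?_)
  show cj (cj z + r * cj u) ∈ V ↔ _
  rw [e]

theorem mir_ray_cis {V : Set ℂ} {s : ℝ} : Ray (cj ⁻¹' V) (cj z) (cis s) ↔ Ray V z (cis (-s)) := by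
  have h := mir_ray (V := V) (z := z) (u := cis (-s))
  rwa [cj_cis, neg_neg] at h

theorem mir_dr {x : ℝ} : x ∈ Dr (mU U) (cj z) i ↔ -x ∈ Dr U z i := by
  show Ray (cj ⁻¹' U i) (cj z) (cis (x * (Real.pi / 3))) ↔ Ray (U i) z (cis (-x * (Real.pi / 3)))
  rw [mir_ray_cis, neg_mul]

theorem mir_sd {x : ℝ} : x ∈ SD448 (mU U) (cj z) i ↔ -x ∈ SD448 U z i := mir_ray_cis

theorem clo_neg {A B : Set ℝ} (h : ∀ x, x ∈ A ↔ -x ∈ B) {x : ℝ} :
    x ∈ closure A ↔ -x ∈ closure B := by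
  have h1 := (Homeomorph.neg ℝ).preimage_closure B
  have h2 : (Homeomorph.neg ℝ) ⁻¹' B = A := by
    ext y
    exact (h y).symm
  rw [h2] at h1
  rw [← h1]
  exact Iff.rfl

theorem mir_clo_dr {x : ℝ} : x ∈ closure (Dr (mU U) (cj z) i) ↔ -x ∈ closure (Dr U z i) :=
  clo_neg fun _ => mir_dr

theorem mir_clo_sd {x : ℝ} :
    x ∈ closure (SD448 (mU U) (cj z) i) ↔ -x ∈ closure (SD448 U z i) :=
  clo_neg fun _ => mir_sd

theorem ev_nap_cj {p : ℂ → Prop} {m : ℂ} :
    (∀ᶠ x in nap (cj z) (cj m), p (cj x)) ↔ ∀ᶠ x in nap z m, p x := by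
  have e : ∀ r s : ℝ, cj (cj z + r * (cj m * cis s)) = z + r * (m * cis (-s)) := by
    intro r s
    rw [cj_add, cj_mul, cj_mul, cj_cj, cj_cj, cj_real, cj_cis]
  rw [nap_iff, nap_iff]
  constructor
  · rintro ⟨δ, hδ, h⟩
    refine ⟨δ, hδ, fun s r hs h0 h1 => ?_⟩
    have h2 := h (-s) r (by rwa [abs_neg]) h0 h1
    rwa [e, neg_neg] at h2
  · rintro ⟨δ, hδ, h⟩
    refine ⟨δ, hδ, fun s r hs h0 h1 => ?_⟩
    rw [e]
    exact h (-s) r (by rwa [abs_neg]) h0 h1

theorem mir_tau {m : ℂ} : i ∈ tau (mT T) (cj z) (cj m) ↔ i ∈ tau T z m := by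
  have h := not_congr (ev_nap_cj (z := z) (m := m) (p := fun x => ¬ i ∈ T x))
  exact h

theorem mir_dir {s : ℝ} : s ∈ Dir429 (mT T) (cj z) i ↔ -s ∈ Dir429 T z i := by
  have h := mir_tau (T := T) (z := z) (i := i) (m := cis (-s))
  rw [cj_cis, neg_neg] at h
  exact h

theorem mir_side {u : ℂ} : Side429 (mU U) (cj z) (cj u) i ↔ Side429 U z u i := by
  unfold Side429
  refine exists_congr fun ε => and_congr_right fun _ => ?_
  rw [← ev_cj (y := z)]
  refine eventually_congr (Eventually.of_forall fun w => ?_)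
  rw [mir_pal]
  have e1 : cj w - z = cj (w - cj z) := by rw [cj_sub, cj_cj]
  have e2 : ip (cj w - z) u = ip (w - cj z) (cj u) := by
    rw [e1, ← ip_cj, cj_cj]
  rw [e2, e1, norm_cj]

theorem mir_side_cis {s : ℝ} :
    Side429 (mU U) (cj z) (cis s) i ↔ Side429 U z (cis (-s)) i := by
  have h := mir_side (U := U) (z := z) (i := i) (u := cis (-s))
  rwa [cj_cis, neg_neg] at h

theorem mir_ori {θ : ℝ} {a b : Fin 6} :
    Ori429 (mU U) (cj z) θ a b ↔ Ori429 U z (-θ) a b := by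
  have h := mir_side (U := U) (z := z) (i := b) (u := -cis (-θ))
  rw [cj_neg, cj_cis, neg_neg] at h
  exact and_congr mir_side_cis h

theorem mir_dd {s : ℝ} : s ∈ DD448 (mU U) (mT T) (cj z) i ↔ -s ∈ DD448 U T z i :=
  or_congr mir_dir mir_clo_sd

theorem mir_hull {l r : ℝ} (H : Hull448 U T z i l r) :
    Hull448 (mU U) (mT T) (cj z) i (-r) (-l) where
  le := neg_le_neg H.le
  lt := by have := H.lt; linarith
  hl := mir_dd.2 (by rw [neg_neg]; exact H.hr)
  hr := mir_dd.2 (by rw [neg_neg]; exact H.hl)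
  mem s hs := by
    obtain ⟨n, h1, h2⟩ := H.mem _ (mir_dd.1 hs)
    refine ⟨-n, ?_, ?_⟩ <;> push_cast <;> linarith

theorem mir_hull429 {l r : ℝ} (H : Hull429 T z i l r) : Hull429 (mT T) (cj z) i (-r) (-l) where
  le := neg_le_neg H.le
  lt := by have := H.lt; linarith
  hl := mir_dir.2 (by rw [neg_neg]; exact H.hr)
  hr := mir_dir.2 (by rw [neg_neg]; exact H.hl)
  mem s hs := by
    obtain ⟨n, h1, h2⟩ := H.mem _ (mir_dir.1 hs)
    refine ⟨-n, ?_, ?_⟩ <;> push_cast <;> linarith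

/-- **the windows of the mirror image** -/
theorem mir_wins (W : Wins448 U T z L R) : Wins448 (mU U) (mT T) (cj z) (mN R) (mN L) := by
  intro i
  have h := mir_hull (W i)
  show Hull448 (mU U) (mT T) (cj z) i (-R i * (Real.pi / 3)) (-L i * (Real.pi / 3))
  rw [neg_mul, neg_mul]
  exact h

theorem mir_winData (w : WinData T z L R) : WinData (mT T) (cj z) (mN R) (mN L) where
  le i := neg_le_neg (w.le i)
  lt i := by
    have := w.lt i
    show -L i < -R i + 3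
    linarith
  cover s := by
    obtain ⟨i, n, h1, h2⟩ := w.cover (-s)
    refine ⟨i, -n, ?_, ?_⟩
    · show -R i + 6 * ((-n : ℤ) : ℝ) ≤ s
      push_cast; linarith
    · show s ≤ -L i + 6 * ((-n : ℤ) : ℝ)
      push_cast; linarith
  side s hs x hx := by
    rcases w.side _ (mir_lc.1 hs) x (by rw [mT_pt] at hx; exact hx) with ⟨n, h3, h4⟩ | ⟨m, h5, h6⟩
    · refine Or.inl ⟨-n, ?_, ?_⟩
      · show s - 3 / 2 < -R x + 6 * ((-n : ℤ) : ℝ)
        push_cast; linarith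
      · show -L x + 6 * ((-n : ℤ) : ℝ) < s + 3 / 2
        push_cast; linarith
    · refine Or.inr ⟨1 - m, ?_, ?_⟩
      · show s + 3 / 2 < -R x + 6 * ((1 - m : ℤ) : ℝ)
        push_cast; linarith
      · show -L x + 6 * ((1 - m : ℤ) : ℝ) < s + 9 / 2
        push_cast; linarith
  front s hs := by
    obtain ⟨x, hx, n, h3, h4⟩ := w.front _ (mir_lc.1 hs)
    refine ⟨x, by rwa [mT_pt], -n, ?_, ?_⟩
    · show s - 3 / 2 < -R x + 6 * ((-n : ℤ) : ℝ)
      push_cast; linarith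
    · show -L x + 6 * ((-n : ℤ) : ℝ) < s + 3 / 2
      push_cast; linarith
  back s hs := by
    obtain ⟨x, hx, m, h5, h6⟩ := w.back _ (mir_lc.1 hs)
    refine ⟨x, by rwa [mT_pt], 1 - m, ?_, ?_⟩
    · show s + 3 / 2 < -R x + 6 * ((1 - m : ℤ) : ℝ)
      push_cast; linarith
    · show -L x + 6 * ((1 - m : ℤ) : ℝ) < s + 9 / 2
      push_cast; linarith

theorem mir_outN {y : ℂ} : OutN (mU U) (cj z) (cj y) i ↔ OutN U z y i := by
  unfold OutN
  rw [← freq_cj (y := y)]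
  refine frequently_congr (Eventually.of_forall fun w => ?_)
  have e : dist w (cj z) = dist (cj w) z := by
    rw [← cj.dist_eq w (cj z), cj_cj]
  show cj w ∈ U i ∧ 1 < dist w (cj z) ↔ _
  rw [e]

theorem mir_innN {y : ℂ} : InnN (mU U) (cj z) (cj y) i ↔ InnN U z y i := by
  unfold InnN
  rw [← freq_cj (y := y)]
  refine frequently_congr (Eventually.of_forall fun w => ?_)
  have e : dist w (cj z) = dist (cj w) z := by
    rw [← cj.dist_eq w (cj z), cj_cj]
  show cj w ∈ U i ∧ dist w (cj z) < 1 ↔ _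
  rw [e]

theorem mir_outN_pt {t : ℝ} : OutN (mU U) (cj z) (pt (cj z) t) i ↔ OutN U z (pt z (-t)) i := by
  have h := mir_outN (U := U) (z := z) (y := pt z (-t)) (i := i)
  rwa [cj_pt, neg_neg] at h

theorem mir_innN_pt {t : ℝ} : InnN (mU U) (cj z) (pt (cj z) t) i ↔ InnN U z (pt z (-t)) i := by
  have h := mir_innN (U := U) (z := z) (y := pt z (-t)) (i := i)
  rwa [cj_pt, neg_neg] at h

/-- **the honest directions of the mirror image** -/
theorem mir_hd {x : ℝ} : x ∈ HD (mU U) (cj z) i ↔ -x ∈ HD U z i := by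
  have e : ∀ t : ℝ, Real.cos ((-x - -t) * (Real.pi / 3)) = Real.cos ((x - t) * (Real.pi / 3)) := by
    intro t
    rw [← Real.cos_neg]
    congr 1
    ring
  constructor
  · intro h t
    have h1 := h (-t)
    rw [mir_outN_pt, mir_innN_pt, neg_neg] at h1
    have h2 := e (-t)
    rw [neg_neg] at h2
    rw [h2]
    exact h1
  · intro h t
    have h1 := h (-t)
    rw [e] at h1
    rw [mir_outN_pt, mir_innN_pt]
    exact h1

theorem mir_pe {e : ℝ} : PE (mU U) (cj z) i e ↔ PE U z i (-e) := by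
  unfold PE
  rw [mir_pal_pt, mir_pal_pt]
  have e1 : -(e + 3 / 2) = -e - 3 / 2 := by ring
  have e2 : -(e - 3 / 2) = -e + 3 / 2 := by ring
  rw [e1, e2]
  exact or_comm

/-! ### Sides of the windows and columns -/

theorem mir_inn_int (w : WinData T z L R) {t : ℝ} (ht : -t ∉ WinData.M L R) {j : ℤ} :
    inn (wn (mN R) (mN L) t i) (j : ZMod 6) ↔ inn (wn L R (-t) i) ((-j : ℤ) : ZMod 6) := by
  rw [(mir_winData w).inn_iff, w.inn_iff]
  have h1 : ∀ n : ℤ, R i ≠ -t + 3 / 2 + n := fun n hn => ht ⟨i, n, Or.inr hn⟩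
  have h2 : ∀ n : ℤ, L i ≠ -t + 3 / 2 + n := fun n hn => ht ⟨i, n, Or.inl hn⟩
  constructor
  · rintro ⟨n, h3, h4⟩
    rw [← sc_int, le_sc] at h3
    rw [← sc_int, sc_lt] at h4
    have h3 : t + 3 / 2 + ((j - 3 : ℤ) : ℝ) ≤ -R i + 6 * n := h3
    have h4 : -L i + 6 * n < t + 3 / 2 + (j : ℝ) := h4
    push_cast at h3
    have h5 := h1 (-j + 6 * n)
    push_cast at h5
    refine ⟨-n, ?_, ?_⟩
    · rw [← sc_int, le_sc]; push_cast; linarith
    · rw [← sc_int, sc_lt]; push_cast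
      refine lt_of_le_of_ne (by linarith) fun h => h5 (by linarith)
  · rintro ⟨n, h3, h4⟩
    rw [← sc_int, le_sc] at h3
    rw [← sc_int, sc_lt] at h4
    push_cast at h3 h4
    have h5 := h2 (-j - 3 - 6 * n)
    push_cast at h5
    refine ⟨-n, ?_, ?_⟩
    · rw [← sc_int, le_sc]
      show t + 3 / 2 + ((j - 3 : ℤ) : ℝ) ≤ -R i + 6 * ((-n : ℤ) : ℝ)
      push_cast; linarith
    · rw [← sc_int, sc_lt]
      show -L i + 6 * ((-n : ℤ) : ℝ) < t + 3 / 2 + (j : ℝ)
      push_cast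
      refine lt_of_le_of_ne (by linarith) fun h => h5 (by linarith)

/-- **the windows in front of the slots of the mirror image** -/
theorem mir_inn (w : WinData T z L R) {t : ℝ} (ht : -t ∉ WinData.M L R) {j : ZMod 6} :
    inn (wn (mN R) (mN L) t i) j ↔ inn (wn L R (-t) i) (-j) := by
  have h := mir_inn_int (i := i) w ht (j := (j.val : ℤ))
  have e : (((j.val : ℕ) : ℤ) : ZMod 6) = j := by
    rw [Int.cast_natCast]
    exact ZMod.natCast_zmod_val j
  rw [Int.cast_neg, e] at h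
  exact h

/-- **the windows behind the slots of the mirror image** -/
theorem mir_out (w : WinData T z L R) {t : ℝ} (ht : -t ∉ WinData.M L R) {j : ZMod 6} :
    out (wn (mN R) (mN L) t i) j ↔ out (wn L R (-t) i) (-j) := by
  unfold out
  rw [mir_inn w ht]
  have e : -(j + 3) = -j + 3 := by
    revert j; decide
  rw [e]

/-- the mirror image of a column -/
def mirC (A : Cl) : Cl := fun j => A (-j)

theorem mirC_mirC (A : Cl) : mirC (mirC A) = A := by
  funext j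
  show A (- -j) = A j
  rw [neg_neg]

/-- **the columns of the mirror image** -/
theorem mir_hold (w : WinData T z L R) {t : ℝ} (ht : -t ∉ WinData.M L R) {A : Cl} :
    Hold (mT T) (cj z) (mN R) (mN L) (mirC A) t ↔ Hold T z L R A (-t) := by
  have key : ∀ j : Fin 6, ((mirC A j).1 ∈ mT T (pt (cj z) (t + (j.val : ℝ))) ∧
      (mirC A j).2 ∈ mT T (pt (cj z) (t + (j.val : ℝ))) ∧
      inn (wn (mN R) (mN L) t (mirC A j).1) (j.val : ZMod 6) ∧
      out (wn (mN R) (mN L) t (mirC A j).2) (j.val : ZMod 6)) ↔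
      ((A (-j)).1 ∈ T (pt z (-t + (((-j : Fin 6).val : ℕ) : ℝ))) ∧
      (A (-j)).2 ∈ T (pt z (-t + (((-j : Fin 6).val : ℕ) : ℝ))) ∧
      inn (wn L R (-t) (A (-j)).1) (((-j : Fin 6).val : ℕ) : ZMod 6) ∧
      out (wn L R (-t) (A (-j)).2) (((-j : Fin 6).val : ℕ) : ZMod 6)) := by
    intro j
    rw [mT_pt, pt_neg_slot, mir_inn w ht, mir_out w ht, neg_val_cast]
    exact Iff.rfl
  constructor
  · intro h j
    have := (key (-j)).1 (h (-j))
    rwa [neg_neg] at this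
  · intro h j
    exact (key j).2 (h (-j))

theorem mirC_sh (A : Cl) : mirC (sh A) = sh (sh (sh (sh (sh (mirC A))))) := by
  funext j
  show A (-j + 1) = A (-(j + 1 + 1 + 1 + 1 + 1))
  congr 1
  revert j; decide

theorem sh_mirC (A : Cl) : sh (mirC A) = mirC (sh (sh (sh (sh (sh A))))) := by
  funext j
  show A (-(j + 1)) = A (-j + 1 + 1 + 1 + 1 + 1)
  congr 1
  revert j; decide

/-! ### Names of the colours -/

/-- renamed colours -/
def rU (σ : Equiv.Perm (Fin 6)) (U : Fin 6 → Set ℂ) : Fin 6 → Set ℂ := fun i => U (σ i)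

/-- renamed palettes -/
def rT (σ : Equiv.Perm (Fin 6)) (T : ℂ → Set (Fin 6)) : ℂ → Set (Fin 6) := fun x => σ ⁻¹' T x

/-- renamed window ends -/
def rN (σ : Equiv.Perm (Fin 6)) (L : Fin 6 → ℝ) : Fin 6 → ℝ := fun i => L (σ i)

theorem ren_irr (h : Irr U T) (σ : Equiv.Perm (Fin 6)) : Irr (rU σ U) (rT σ T) := h.permH σ

theorem pre_inj (σ : Equiv.Perm (Fin 6)) {A B : Set (Fin 6)} : σ ⁻¹' A = σ ⁻¹' B ↔ A = B :=
  (preimage_injective.2 σ.surjective).eq_iff

theorem ren_lc (σ : Equiv.Perm (Fin 6)) {s : ℝ} : s ∈ Lc (rT σ T) z ↔ s ∈ Lc T z :=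
  eventually_congr (Eventually.of_forall fun _ => pre_inj σ)

theorem ren_L0 (σ : Equiv.Perm (Fin 6)) {t : ℝ} :
    t ∈ WinData.L0 (rT σ T) z ↔ t ∈ WinData.L0 T z :=
  forall_congr' fun _ => ren_lc σ

theorem ren_M (σ : Equiv.Perm (Fin 6)) {t : ℝ} :
    t ∈ WinData.M (rN σ L) (rN σ R) ↔ t ∈ WinData.M L R := by
  constructor
  · rintro ⟨i, n, h⟩
    exact ⟨σ i, n, h⟩
  · rintro ⟨i, n, h⟩
    refine ⟨σ.symm i, n, ?_⟩
    show L (σ (σ.symm i)) = _ ∨ R (σ (σ.symm i)) = _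
    rw [σ.apply_symm_apply]
    exact h

/-- **the generic times do not depend on the names** -/
theorem ren_G (σ : Equiv.Perm (Fin 6)) {t : ℝ} :
    t ∈ WinData.G (rT σ T) z (rN σ L) (rN σ R) ↔ t ∈ WinData.G T z L R :=
  and_congr (ren_L0 σ) (not_congr (ren_M σ))

theorem ren_hull (σ : Equiv.Perm (Fin 6)) {l r : ℝ} (H : Hull448 U T z (σ i) l r) :
    Hull448 (rU σ U) (rT σ T) z i l r :=
  ⟨H.le, H.lt, H.hl, H.hr, H.mem⟩

theorem ren_hull429 (σ : Equiv.Perm (Fin 6)) {l r : ℝ} (H : Hull429 T z (σ i) l r) :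
    Hull429 (rT σ T) z i l r :=
  ⟨H.le, H.lt, H.hl, H.hr, H.mem⟩

theorem ren_wins (σ : Equiv.Perm (Fin 6)) (W : Wins448 U T z L R) :
    Wins448 (rU σ U) (rT σ T) z (rN σ L) (rN σ R) := fun i => ren_hull σ (W (σ i))

theorem ren_winData (σ : Equiv.Perm (Fin 6)) (w : WinData T z L R) :
    WinData (rT σ T) z (rN σ L) (rN σ R) where
  le i := w.le (σ i)
  lt i := w.lt (σ i)
  cover s := by
    obtain ⟨i, n, h⟩ := w.cover s
    refine ⟨σ.symm i, n, ?_⟩
    show L (σ (σ.symm i)) + 6 * n ≤ s ∧ s ≤ R (σ (σ.symm i)) + 6 * n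
    rw [σ.apply_symm_apply]
    exact h
  side s hs x hx := w.side s ((ren_lc σ).1 hs) (σ x) hx
  front s hs := by
    obtain ⟨x, hx, h⟩ := w.front s ((ren_lc σ).1 hs)
    refine ⟨σ.symm x, ?_, ?_⟩
    · show σ (σ.symm x) ∈ T (pt z s)
      rwa [σ.apply_symm_apply]
    · show ∃ n : ℤ, s - 3 / 2 < L (σ (σ.symm x)) + 6 * n ∧ R (σ (σ.symm x)) + 6 * n < s + 3 / 2
      rw [σ.apply_symm_apply]
      exact h
  back s hs := by
    obtain ⟨x, hx, h⟩ := w.back s ((ren_lc σ).1 hs)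
    refine ⟨σ.symm x, ?_, ?_⟩
    · show σ (σ.symm x) ∈ T (pt z s)
      rwa [σ.apply_symm_apply]
    · show ∃ n : ℤ, s + 3 / 2 < L (σ (σ.symm x)) + 6 * n ∧ R (σ (σ.symm x)) + 6 * n < s + 9 / 2
      rw [σ.apply_symm_apply]
      exact h

theorem ren_hd (σ : Equiv.Perm (Fin 6)) {x : ℝ} : x ∈ HD (rU σ U) z i ↔ x ∈ HD U z (σ i) :=
  Iff.rfl

theorem ren_pe (σ : Equiv.Perm (Fin 6)) {e : ℝ} : PE (rU σ U) z i e ↔ PE U z (σ i) e := Iff.rfl

theorem ren_dr (σ : Equiv.Perm (Fin 6)) : Dr (rU σ U) z i = Dr U z (σ i) := rfl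

/-- renamed columns -/
def renC (σ : Equiv.Perm (Fin 6)) (A : Cl) : Cl := fun j => (σ (A j).1, σ (A j).2)

theorem renC_inv (σ : Equiv.Perm (Fin 6)) (A : Cl) : renC σ (renC σ⁻¹ A) = A := by
  funext j
  show (σ (σ.symm (A j).1), σ (σ.symm (A j).2)) = A j
  rw [σ.apply_symm_apply, σ.apply_symm_apply]

/-- **the columns of the renamed centre** -/
theorem ren_hold (σ : Equiv.Perm (Fin 6)) {t : ℝ} {A : Cl} :
    Hold (rT σ T) z (rN σ L) (rN σ R) A t ↔ Hold T z L R (renC σ A) t := Iff.rfl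

/-! ### Transfer of negative statements -/

/-- a predicate of a windowed centre which is invariant under mirror images and names -/
structure SymInv (P : (Fin 6 → Set ℂ) → (ℂ → Set (Fin 6)) → ℂ → (Fin 6 → ℝ) → (Fin 6 → ℝ) → Prop) :
    Prop where
  mir : ∀ U T z L R, P U T z L R → P (mU U) (mT T) (cj z) (mN R) (mN L)
  ren : ∀ (σ : Equiv.Perm (Fin 6)) U T z L R, P U T z L R → P (rU σ U) (rT σ T) z (rN σ L) (rN σ R)
  win : ∀ U T z L R, P U T z L R → WinData T z L R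

/-- the column `A` is never held at a generic time -/
def DeadC (P : (Fin 6 → Set ℂ) → (ℂ → Set (Fin 6)) → ℂ → (Fin 6 → ℝ) → (Fin 6 → ℝ) → Prop)
    (A : Cl) : Prop :=
  ∀ U T z L R, P U T z L R → ∀ t ∈ WinData.G T z L R, ¬ Hold T z L R A t

/-- the event `B | A` does not occur -/
def DeadE (P : (Fin 6 → Set ℂ) → (ℂ → Set (Fin 6)) → ℂ → (Fin 6 → ℝ) → (Fin 6 → ℝ) → Prop)
    (B A : Cl) : Prop :=
  ∀ U T z L R, P U T z L R → ∀ u, (∃ᶠ v in 𝓝[<] u, v ∈ WinData.G T z L R ∧ Hold T z L R B v) →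
    (∃ᶠ v in 𝓝[>] u, v ∈ WinData.G T z L R ∧ Hold T z L R A v) → False

section

variable {P : (Fin 6 → Set ℂ) → (ℂ → Set (Fin 6)) → ℂ → (Fin 6 → ℝ) → (Fin 6 → ℝ) → Prop}
  {A B : Cl}

/-- **the mirror image of a column which is never held** -/
theorem DeadC.mir (hP : SymInv P) (h : DeadC P A) : DeadC P (mirC A) := by
  intro U T z L R hp t ht hA
  have h1 := hP.mir _ _ _ _ _ hp
  have ht' : - -t ∈ WinData.G T z L R := by rw [neg_neg]; exact ht
  refine h _ _ _ _ _ h1 (-t) (mir_G.2 ht') ?_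
  have h2 := (mir_hold (hP.win _ _ _ _ _ hp) ht'.2 (A := mirC A)).2 (by rw [neg_neg]; exact hA)
  rwa [mirC_mirC] at h2

/-- **other names** -/
theorem DeadC.ren (hP : SymInv P) (h : DeadC P A) (σ : Equiv.Perm (Fin 6)) :
    DeadC P (renC σ A) := by
  intro U T z L R hp t ht hA
  exact h _ _ _ _ _ (hP.ren σ _ _ _ _ _ hp) t ((ren_G σ).2 ht) ((ren_hold σ).2 hA)

theorem DeadC.of_sh (h : DeadC P (sh A)) : DeadC P A := fun U T z L R hp t ht hA =>
  h U T z L R hp (t + 1) (WinData.G_turn ht) ((hold_turn T z L R A t).2 hA)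

/-- **the turned column** -/
theorem DeadC.sh (h : DeadC P A) : DeadC P (sh A) := by
  have e : H314.sh (H314.sh (H314.sh (H314.sh (H314.sh (H314.sh A))))) = A := by
    funext j
    show A (j + 1 + 1 + 1 + 1 + 1 + 1) = A j
    congr 1
    revert j; decide
  rw [← e] at h
  exact h.of_sh.of_sh.of_sh.of_sh.of_sh

theorem freq_neg_lt {p : ℝ → Prop} {u : ℝ} (h : ∃ᶠ v in 𝓝[<] u, p v) :
    ∃ᶠ v in 𝓝[>] (-u), p (-v) := by
  have h1 : Tendsto (fun v : ℝ => -v) (𝓝[<] u) (𝓝[>] (-u)) :=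
    tendsto_nhdsWithin_iff.2 ⟨(continuous_neg.tendsto u).mono_left nhdsWithin_le_nhds, by
      filter_upwards [self_mem_nhdsWithin] with v hv
      exact neg_lt_neg (show v < u from hv)⟩
  refine h1.frequently (h.mono fun v hv => ?_)
  rwa [neg_neg]

theorem freq_neg_gt {p : ℝ → Prop} {u : ℝ} (h : ∃ᶠ v in 𝓝[>] u, p v) :
    ∃ᶠ v in 𝓝[<] (-u), p (-v) := by
  have h1 : Tendsto (fun v : ℝ => -v) (𝓝[>] u) (𝓝[<] (-u)) :=
    tendsto_nhdsWithin_iff.2 ⟨(continuous_neg.tendsto u).mono_left nhdsWithin_le_nhds, by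
      filter_upwards [self_mem_nhdsWithin] with v hv
      exact neg_lt_neg (show u < v from hv)⟩
  refine h1.frequently (h.mono fun v hv => ?_)
  rwa [neg_neg]

/-- a held column in the mirror image -/
theorem mir_hold_neg (w : WinData T z L R) {t : ℝ} (ht : t ∈ WinData.G T z L R)
    (hA : Hold T z L R A t) : -t ∈ WinData.G (mT T) (cj z) (mN R) (mN L) ∧
      Hold (mT T) (cj z) (mN R) (mN L) (mirC A) (-t) := by
  have ht' : - -t ∈ WinData.G T z L R := by rw [neg_neg]; exact ht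
  exact ⟨mir_G.2 ht', (mir_hold w ht'.2).2 (by rw [neg_neg]; exact hA)⟩

/-- **the mirror image of an event which does not occur** (the mirror reverses the time) -/
theorem DeadE.mir (hP : SymInv P) (h : DeadE P B A) : DeadE P (mirC A) (mirC B) := by
  intro U T z L R hp u h1 h2
  have w := hP.win _ _ _ _ _ hp
  refine h _ _ _ _ _ (hP.mir _ _ _ _ _ hp) (-u) ?_ ?_
  · refine (freq_neg_gt h2).mono fun v hv => ?_
    have h3 := mir_hold_neg w hv.1 hv.2
    rw [neg_neg, mirC_mirC] at h3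
    exact h3
  · refine (freq_neg_lt h1).mono fun v hv => ?_
    have h3 := mir_hold_neg w hv.1 hv.2
    rw [neg_neg, mirC_mirC] at h3
    exact h3

theorem DeadE.ren (hP : SymInv P) (h : DeadE P B A) (σ : Equiv.Perm (Fin 6)) :
    DeadE P (renC σ B) (renC σ A) := by
  intro U T z L R hp u h1 h2
  exact h _ _ _ _ _ (hP.ren σ _ _ _ _ _ hp) u (h1.mono fun v hv => ⟨(ren_G σ).2 hv.1, hv.2⟩)
    (h2.mono fun v hv => ⟨(ren_G σ).2 hv.1, hv.2⟩)

theorem DeadE.of_sh (h : DeadE P (H314.sh B) (H314.sh A)) : DeadE P B A := by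
  intro U T z L R hp u h1 h2
  have e1 : Tendsto (fun v : ℝ => v + 1) (𝓝[<] u) (𝓝[<] (u + 1)) :=
    tendsto_nhdsWithin_iff.2 ⟨((continuous_id.add continuous_const).tendsto u).mono_left
      nhdsWithin_le_nhds, by
      filter_upwards [self_mem_nhdsWithin] with v hv
      exact (by linarith [show v < u from hv] : v + 1 < u + 1)⟩
  have e2 : Tendsto (fun v : ℝ => v + 1) (𝓝[>] u) (𝓝[>] (u + 1)) :=
    tendsto_nhdsWithin_iff.2 ⟨((continuous_id.add continuous_const).tendsto u).mono_left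
      nhdsWithin_le_nhds, by
      filter_upwards [self_mem_nhdsWithin] with v hv
      exact (by linarith [show u < v from hv] : u + 1 < v + 1)⟩
  exact h U T z L R hp (u + 1)
    (e1.frequently (h1.mono fun v hv => ⟨WinData.G_turn hv.1, (hold_turn T z L R B v).2 hv.2⟩))
    (e2.frequently (h2.mono fun v hv => ⟨WinData.G_turn hv.1, (hold_turn T z L R A v).2 hv.2⟩))

theorem DeadE.sh (h : DeadE P B A) : DeadE P (H314.sh B) (H314.sh A) := by
  have e : ∀ A : Cl, H314.sh (H314.sh (H314.sh (H314.sh (H314.sh (H314.sh A))))) = A := by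
    intro A
    funext j
    show A (j + 1 + 1 + 1 + 1 + 1 + 1) = A j
    congr 1
    revert j; decide
  rw [← e A, ← e B] at h
  exact h.of_sh.of_sh.of_sh.of_sh.of_sh

end

/-- the base predicate: maximal family, windows of the solid colours, all six colours at the
centre -/
def WP (U : Fin 6 → Set ℂ) (T : ℂ → Set (Fin 6)) (z : ℂ) (L R : Fin 6 → ℝ) : Prop :=
  Irr U T ∧ Wins448 U T z L R ∧ WinData T z L R ∧ (∀ i, i ∈ T z) ∧
    ∀ i, L i ∈ closure (Dr U z i) ∧ R i ∈ closure (Dr U z i) ∧ PE U z i (L i) ∧ PE U z i (R i)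

theorem symInv_WP : SymInv WP where
  mir := by
    rintro U T z L R ⟨h1, h2, h3, h4, h5⟩
    refine ⟨mir_irr h1, mir_wins h2, mir_winData h3, fun i => by rw [mT_cj]; exact h4 i,
      fun i => ?_⟩
    obtain ⟨a1, a2, a3, a4⟩ := h5 i
    refine ⟨mir_clo_dr.2 ?_, mir_clo_dr.2 ?_, mir_pe.2 ?_, mir_pe.2 ?_⟩
    · show - -R i ∈ _
      rw [neg_neg]; exact a2
    · show - -L i ∈ _
      rw [neg_neg]; exact a1
    · show PE U z i (- -R i)
      rw [neg_neg]; exact a4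
    · show PE U z i (- -L i)
      rw [neg_neg]; exact a3
  ren := by
    rintro σ U T z L R ⟨h1, h2, h3, h4, h5⟩
    exact ⟨ren_irr h1 σ, ren_wins σ h2, ren_winData σ h3, fun i => h4 (σ i), fun i => h5 (σ i)⟩
  win := fun _ _ _ _ _ h => h.2.2.1

end Vale.Agent.P032.H617
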