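import Vale.Agent.P032.H617.TLat

/-!
# P032: the palette rules for slots of two classes of directions

`pt x s`, `pt x s'` with `sin ((s' - s) * 60 degrees) ≠ 0` : the directions are not parallel.  Lemma X,
Lemma B, and the two forms of the third colour rule for such slots (rank four lattice).
-/

open Set Filter Topology Metric

noncomputable section

namespace Vale.Agent.P032.H617

open Vale.Agent.P032.Six Vale.Agent.P032.S5.H767 Vale.Agent.P032.S5.H122 Vale.Agent.P032.H437

variable {U : Fin 6 → Set ℂ} {T : ℂ → Set (Fin 6)}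

/-- directions which are not parallel -/
def Npar (s s' : ℝ) : Prop := Real.sin ((s' - s) * (Real.pi / 3)) ≠ 0

theorem Npar.symm {s s' : ℝ} (h : Npar s s') : Npar s' s := by
  unfold Npar at h ⊢
  rw [show (s - s') * (Real.pi / 3) = -((s' - s) * (Real.pi / 3)) by ring, Real.sin_neg]
  exact neg_ne_zero.2 h

/-- the cross product of two directions -/
theorem cross_cis (a b : ℝ) :
    (cis a).re * (cis b).im - (cis a).im * (cis b).re = Real.sin (b - a) := by
  unfold cis
  rw [Complex.exp_ofReal_mul_I_re, Complex.exp_ofReal_mul_I_im, Complex.exp_ofReal_mul_I_re,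
    Complex.exp_ofReal_mul_I_im, Real.sin_sub]
  ring

theorem cis_ne {a b : ℝ} (h : Real.sin (b - a) ≠ 0) : cis b ≠ cis a ∧ cis b ≠ -cis a := by
  refine ⟨fun h1 => h ?_, fun h1 => h ?_⟩
  · rw [← cross_cis, h1]; ring
  · rw [← cross_cis, h1, Complex.neg_im, Complex.neg_re]; ring

theorem Npar.cis {s s' : ℝ} (h : Npar s s') :
    Six.cis (s' * (Real.pi / 3)) ≠ Six.cis (s * (Real.pi / 3)) ∧
      Six.cis (s' * (Real.pi / 3)) ≠ -Six.cis (s * (Real.pi / 3)) := by
  refine cis_ne ?_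
  rw [show s' * (Real.pi / 3) - s * (Real.pi / 3) = (s' - s) * (Real.pi / 3) by ring]
  exact h

/-- two slots of one point -/
theorem Npar.slots {s s' : ℝ} (h : Npar s s') (x : ℂ) :
    pt x s' ≠ pt x s ∧ pt x s' + pt x s ≠ 2 * x := by
  obtain ⟨h1, h2⟩ := h.cis
  refine ⟨fun h3 => h1 ?_, fun h3 => h2 ?_⟩
  · unfold pt at h3; exact add_left_cancel h3
  · unfold pt at h3; linear_combination h3

/-- a path of two steps -/
theorem Npar.path {s s' : ℝ} (h : Npar s s') (x : ℂ) :
    pt (pt x s) s' ≠ x ∧ pt (pt x s) s' + x ≠ 2 * pt x s := by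
  obtain ⟨h1, h2⟩ := h.cis
  refine ⟨fun h3 => h2 ?_, fun h3 => h1 ?_⟩
  · unfold pt at h3; linear_combination h3
  · unfold pt at h3; linear_combination h3

/-- slots of one class -/
theorem npar_fin (u : ℝ) : ∀ {j k : Fin 6}, k ≠ j → k ≠ j + 3 →
    Npar (u + (j.val : ℝ)) (u + (k.val : ℝ)) := by
  intro j k h1 h2 h3
  have h4 : (u + (k.val : ℝ) - (u + (j.val : ℝ))) * (Real.pi / 3) =
      (((k.val : ℤ) - (j.val : ℤ) : ℤ) : ℝ) * (Real.pi / 3) := by push_cast; ring
  rw [h4, Real.sin_eq_zero_iff] at h3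
  obtain ⟨n, hn⟩ := h3
  have h5 : (3 * n : ℤ) = (k.val : ℤ) - (j.val : ℤ) := by
    have hpi := Real.pi_pos
    have h6 : (3 * (n : ℝ)) * Real.pi = (((k.val : ℤ) - (j.val : ℤ) : ℤ) : ℝ) * Real.pi := by
      linarith
    have h7 := mul_right_cancel₀ hpi.ne' h6
    exact_mod_cast h7
  have hj := j.isLt
  have hk := k.isLt
  have h6 : (k.val : ℤ) - (j.val : ℤ) = 0 ∨ (k.val : ℤ) - (j.val : ℤ) = 3 ∨
      (k.val : ℤ) - (j.val : ℤ) = -3 := by omega
  have key : ∀ j k : Fin 6, ((k.val : ℤ) - (j.val : ℤ) = 0 ∨ (k.val : ℤ) - (j.val : ℤ) = 3 ∨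
      (k.val : ℤ) - (j.val : ℤ) = -3) → k = j ∨ k = j + 3 := by decide
  rcases key j k h6 with h | h
  · exact h1 h
  · exact h2 h

/-- directions of two classes are never parallel if the classes differ by less than one unit -/
theorem npar_class {θ : ℝ} (h0 : 0 < θ) (h1 : θ < 1) (u : ℝ) (n : ℤ) : Npar u (u + θ + n) := by
  intro h
  rw [show (u + θ + n - u) * (Real.pi / 3) = (θ + n) * (Real.pi / 3) by ring,
    Real.sin_eq_zero_iff] at h
  obtain ⟨m, hm⟩ := h
  have hpi := Real.pi_pos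
  have h2 : (3 * (m : ℝ)) * Real.pi = (θ + n) * Real.pi := by linarith
  have h3 := mul_right_cancel₀ hpi.ne' h2
  have h4 : θ = ((3 * m - n : ℤ) : ℝ) := by push_cast; linarith
  rw [h4] at h0 h1
  have h5 : (0 : ℤ) < 3 * m - n := by exact_mod_cast h0
  have h6 : 3 * m - n < (1 : ℤ) := by exact_mod_cast h1
  omega

/-- slots of two classes -/
theorem npar_two {u u' : ℝ} (h0 : u < u') (h1 : u' < u + 1) (j k : Fin 6) :
    Npar (u + (j.val : ℝ)) (u' + (k.val : ℝ)) := by
  have h := npar_class (θ := u' - u) (by linarith) (by linarith) (u + (j.val : ℝ))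
    ((k.val : ℤ) - (j.val : ℤ))
  have e : u + (j.val : ℝ) + (u' - u) + (((k.val : ℤ) - (j.val : ℤ) : ℤ) : ℝ) =
      u' + (k.val : ℝ) := by push_cast; ring
  rwa [e] at h

/-! ### the rules -/

/-- **Lemma X** -/
theorem third_ang (h : Irr U T) (x : ℂ) {s s' : ℝ} (hn : Npar s s') {t : Fin 6}
    (ht : t ∈ T (pt (pt x s) s')) :
    4 ≤ (T x).ncard ∨ ∃ i, i ≠ t ∧ i ∈ T (pt x s) ∧ i ∉ T x := by
  by_cases h4 : 4 ≤ (T x).ncard
  · exact Or.inl h4
  · refine Or.inr ?_
    by_contra hcon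
    push Not at hcon
    have hsub : T (pt x s) ⊆ insert t (T x) := by
      intro i hi
      by_cases hit : i = t
      · exact Or.inl hit
      · exact Or.inr (hcon i hit hi)
    obtain ⟨k1, k2⟩ := hn.path x
    have h6 := dist_pt (pt x s) s'
    rw [dist_comm] at h6
    rcases h.lemmaX (dist_pt x s) (by omega) hsub h6 (h.sub _ ht) with h5 | h5
    · exact k1 h5
    · exact k2 h5

/-- **Lemma B** -/
theorem lemmaB_ang (h : Irr U T) (x : ℂ) {s s' : ℝ} (hn : Npar s s') {a b : Fin 6}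
    (ha : a ∈ T (pt x s)) (hb : b ∈ T (pt x s')) : ∃ i ∈ T x, i ≠ a ∧ i ≠ b := by
  by_contra hcon
  push Not at hcon
  have hx : T x ⊆ {a, b} := by
    intro i hi
    by_cases hia : i = a
    · exact Or.inl hia
    · exact Or.inr (hcon i hi hia)
  obtain ⟨k1, k2⟩ := hn.slots x
  have h5 := dist_pt x s
  have h6 := dist_pt x s'
  rw [dist_comm] at h5 h6
  rcases h.lemmaB hx h5 h6 (h.sub _ ha) (h.sub _ hb) with h3 | h3
  · exact k1 h3
  · exact k2 h3

/-- **third colour** : `x`, `y` at distance one with at most three colours each and two common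
colours: the third colour of `x` is absent at the points of `S(x)` off the line `x y` -/
theorem third_colour_ang (h : Irr U T) (x : ℂ) {s s' : ℝ} (hn : Npar s s')
    (h3 : (T x).ncard ≤ 3) (h3' : (T (pt x s)).ncard ≤ 3)
    (h2 : 2 ≤ (T x ∩ T (pt x s)).ncard) :
    Disjoint (T x \ T (pt x s)) (T (pt x s')) := by
  rw [Set.disjoint_left]
  rintro c ⟨hc, hc'⟩ hc2
  have hsub : T x ⊆ insert c (T (pt x s)) := by
    intro i hi
    by_cases hic : i = c
    · exact Or.inl hic
    · refine Or.inr ?_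
      by_contra hi'
      have h5 : ({c, i} : Set (Fin 6)) ⊆ T x \ T (pt x s) := by
        rintro m (rfl | rfl)
        · exact ⟨hc, hc'⟩
        · exact ⟨hi, hi'⟩
      have h6 := Set.ncard_le_ncard h5 (Set.toFinite _)
      rw [Set.ncard_pair (fun h => hic h.symm)] at h6
      have h7 := Set.ncard_inter_add_ncard_sdiff_eq_ncard (T x) (T (pt x s)) (Set.toFinite _)
      omega
  obtain ⟨k1, k2⟩ := hn.slots x
  have h5 := dist_pt x s
  have h6 := dist_pt x s'
  rw [dist_comm] at h5 h6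
  rcases h.lemmaX h5 h3' hsub h6 (h.sub _ hc2) with h8 | h8
  · exact k1 h8
  · exact k2 h8

end Vale.Agent.P032.H617
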