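import Vale.Agent.P032.H617.TLat2
import Vale.Agent.P032.H437.Fr2s

/-!
# P032: the palette rules in the words of the K = 2 frame (`Fr2`, `l4`, `st4`, `T4`)
-/

open Set Filter Topology Metric

noncomputable section

namespace Vale.Agent.P032.H617

open Vale.Agent.P032.Six Vale.Agent.P032.S5.H767 Vale.Agent.P032.S5.H122 Vale.Agent.P032.H437

variable {U : Fin 6 → Set ℂ} {T : ℂ → Set (Fin 6)} {z : ℂ} {u u' : ℝ} {F F' : Bool → Ultrafilter ℝ}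
  {c c' : Bool} {q : ℤ × ℤ × ℤ × ℤ} {j k : Fin 6}

theorem dir2_eq (u u' : ℝ) (c : Bool) (j : Fin 6) : dir2 u u' c j = uu u u' c + (j.val : ℝ) := by
  cases c <;> rfl

theorem l4_dir (z : ℂ) (u u' : ℝ) (q : ℤ × ℤ × ℤ × ℤ) (c : Bool) (j : Fin 6) :
    pt (l4 z u u' q) (dir2 u u' c j) = l4 z u u' (st4 c q j) := by
  rw [dir2_eq]; exact l4_step z u u' q c j

/-- **F13** -/
theorem fr2_notsub (h : Fr2 U T u u' F F') (z : ℂ) (q : ℤ × ℤ × ℤ × ℤ) (c : Bool) (j : Fin 6) :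
    4 ≤ (T (l4 z u u' q)).ncard ∨ ∃ i, T4 T z u u' (st4 c q j) i ∧ ¬ T4 T z u u' q i := by
  have h1 := notsub2 (u := u) (u' := u') h.a.irr (l4 z u u' q) c j
  rwa [l4_dir] at h1

/-- **F14** -/
theorem fr2_third (h : Fr2 U T u u' F F') (hn : Np c c' j k = true) {t : Fin 6}
    (ht : T4 T z u u' (st4 c' (st4 c q j) k) t) :
    4 ≤ (T (l4 z u u' q)).ncard ∨
      ∃ i, i ≠ t ∧ T4 T z u u' (st4 c q j) i ∧ ¬ T4 T z u u' q i := by
  unfold T4 at ht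
  rw [← l4_dir, ← l4_dir z u u' q] at ht
  have h1 := third2 h.a.irr h.lt0 h.lt1 (l4 z u u' q) hn ht
  rwa [l4_dir] at h1

/-- **F12** -/
theorem fr2_lemmaB (h : Fr2 U T u u' F F') (hn : Np c c' j k = true) {a b : Fin 6}
    (ha : T4 T z u u' (st4 c q j) a) (hb : T4 T z u u' (st4 c' q k) b) :
    ∃ i, T4 T z u u' q i ∧ i ≠ a ∧ i ≠ b := by
  unfold T4 at ha hb
  rw [← l4_dir] at ha hb
  exact lemmaB2 h.a.irr h.lt0 h.lt1 (l4 z u u' q) hn ha hb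

/-- **le1** -/
theorem fr2_le1 (h : Fr2 U T u u' F F') {a : Fin 6} (ha : T4 T z u u' (st4 c q j) a) :
    ∃ i, T4 T z u u' q i ∧ i ≠ a := by
  unfold T4 at ha
  rw [← l4_dir] at ha
  exact le1_pt h.a.irr (l4 z u u' q) _ ha

/-- neighbours of one class in consecutive directions -/
theorem dist_st4_next (z : ℂ) (u u' : ℝ) (q : ℤ × ℤ × ℤ × ℤ) (c : Bool) (j : Fin 6) :
    dist (l4 z u u' (st4 c q j)) (l4 z u u' (st4 c q (j + 1))) = 1 := by
  rw [← l4_dir, ← l4_dir, dir2_eq, dir2_eq, ← lp_slot, ← lp_slot]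
  exact dist_step_next 0 0 j

/-- **common** -/
theorem fr2_common (h : Fr2 U T u u' F F') (h5 : 5 ≤ (T (l4 z u u' q)).ncard) {a b : Fin 6}
    (hab : a ≠ b) (ha : T4 T z u u' (st4 c q j) a) (hb : T4 T z u u' (st4 c q j) b)
    (ha' : T4 T z u u' (st4 c q (j + 1)) a) (hb' : T4 T z u u' (st4 c q (j + 1)) b) :
    4 ≤ (T (l4 z u u' (st4 c q j))).ncard ∨ 4 ≤ (T (l4 z u u' (st4 c q (j + 1)))).ncard :=
  common_aux h.a.irr (dist_l4 z u u' q c j) (dist_l4 z u u' q c (j + 1))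
    (dist_st4_next z u u' q c j) h5 hab ha hb ha' hb'

end Vale.Agent.P032.H617
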