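import Vale.Agent.P032.H437.Fr
import Vale.Agent.P032.S5.H767.Five

/-!
# P032: the rules for the palettes of lattice points

`x = lp z u m n`, its neighbours `y j = lp z u (m + dx j) (n + dy j)`.  Families of clauses in the
atoms `i ∈ T (lp ..)` and `n ≤ (T (lp ..)).ncard`: `notsub`, `third` (Lemma X), `lemmaB`, `le1`,
`common`.
-/

open Set Filter Topology Metric

noncomputable section

namespace Vale.Agent.P032.H617

open Vale.Agent.P032.Six Vale.Agent.P032.S5.H767 Vale.Agent.P032.S5.H122 Vale.Agent.P032.H437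

variable {U : Fin 6 → Set ℂ} {T : ℂ → Set (Fin 6)} {z : ℂ} {u : ℝ}

/-! ### the lattice -/

/-- the second generator -/
theorem cis_add_third (s : ℝ) :
    cis ((s + 1) * (Real.pi / 3)) = cis (s * (Real.pi / 3)) * cis (Real.pi / 3) := by
  rw [← Six.cis_add]; congr 1; ring

theorem norm_comb (s : ℝ) (m n : ℤ) :
    ‖(m : ℂ) * cis (s * (Real.pi / 3)) + n * cis ((s + 1) * (Real.pi / 3))‖ ^ 2 =
      (m ^ 2 + m * n + n ^ 2 : ℤ) := by
  have h1 : (m : ℂ) * cis (s * (Real.pi / 3)) + n * cis ((s + 1) * (Real.pi / 3)) =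
      cis (s * (Real.pi / 3)) * (m + n * cis (Real.pi / 3)) := by
    rw [cis_add_third]; ring
  rw [h1, norm_mul, norm_cis, one_mul, ← Complex.normSq_eq_norm_sq, cis_third, Complex.normSq_apply]
  have h3 : √3 * √3 = (3 : ℝ) := Real.mul_self_sqrt (by norm_num)
  simp only [Complex.add_re, Complex.add_im, Complex.mul_re, Complex.mul_im, Complex.intCast_re,
    Complex.intCast_im]
  push_cast
  linear_combination (n : ℝ) ^ 2 / 4 * h3

theorem lp_sub (m n m' n' : ℤ) : lp z u m n - lp z u m' n' =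
    ((m - m' : ℤ) : ℂ) * cis (u * (Real.pi / 3)) + ((n - n' : ℤ) : ℂ) *
      cis ((u + 1) * (Real.pi / 3)) := by
  unfold H437.lp; push_cast; ring

theorem dist_lp_sq (m n m' n' : ℤ) : dist (lp z u m n) (lp z u m' n') ^ 2 =
    ((m - m') ^ 2 + (m - m') * (n - n') + (n - n') ^ 2 : ℤ) := by
  rw [dist_eq_norm, lp_sub, norm_comb]

theorem dist_lp_one {m n m' n' : ℤ}
    (h : (m - m') ^ 2 + (m - m') * (n - n') + (n - n') ^ 2 = 1) :
    dist (lp z u m n) (lp z u m' n') = 1 := by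
  have h1 := dist_lp_sq (z := z) (u := u) m n m' n'
  rw [h] at h1
  have h2 : (0 : ℝ) ≤ dist (lp z u m n) (lp z u m' n') := dist_nonneg
  push_cast at h1
  nlinarith [h1]

/-- lattice points with different coordinates are different -/
theorem lp_inj {m n m' n' : ℤ} (h : lp z u m n = lp z u m' n') : m = m' ∧ n = n' := by
  have h1 := dist_lp_sq (z := z) (u := u) m n m' n'
  rw [h, dist_self] at h1
  have h2 : (m - m') ^ 2 + (m - m') * (n - n') + (n - n') ^ 2 = 0 := by exact_mod_cast h1.symm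
  have h3 : (2 * (m - m') + (n - n')) ^ 2 + 3 * (n - n') ^ 2 = 0 := by linarith
  have h4 : (n - n') ^ 2 = 0 := by nlinarith [sq_nonneg (2 * (m - m') + (n - n')), sq_nonneg (n - n')]
  have h5 : n - n' = 0 := pow_eq_zero_iff (two_ne_zero) |>.1 h4
  rw [h5] at h2
  have h6 : (m - m') ^ 2 = 0 := by linarith
  have h7 : m - m' = 0 := pow_eq_zero_iff (two_ne_zero) |>.1 h6
  omega

theorem lp_add (m n m' n' : ℤ) : lp z u m n + lp z u m' n' = 2 * z +
    ((m + m' : ℤ) : ℂ) * cis (u * (Real.pi / 3)) + ((n + n' : ℤ) : ℂ) *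
      cis ((u + 1) * (Real.pi / 3)) := by
  unfold H437.lp; push_cast; ring

/-- sums of lattice points -/
theorem lp_add_inj {m n m' n' a b : ℤ} (h : lp z u m n + lp z u m' n' = 2 * lp z u a b) :
    m + m' = 2 * a ∧ n + n' = 2 * b := by
  have h1 : lp z u (m + m' - a) (n + n' - b) = lp z u a b := by
    have h2 : lp z u (m + m' - a) (n + n' - b) = lp z u m n + lp z u m' n' - lp z u a b := by
      unfold H437.lp; push_cast; ring
    rw [h2, h]; ring
  have h3 := lp_inj h1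
  omega

theorem step_one : ∀ j : Fin 6, dx j ^ 2 + dx j * dy j + dy j ^ 2 = 1 := by decide

theorem step_next : ∀ j : Fin 6, (dx j - dx (j + 1)) ^ 2 + (dx j - dx (j + 1)) *
    (dy j - dy (j + 1)) + (dy j - dy (j + 1)) ^ 2 = 1 := by decide

theorem step_inj : ∀ j k : Fin 6, dx j = dx k → dy j = dy k → j = k := by decide

theorem step_opp : ∀ j k : Fin 6, dx j + dx k = 0 → dy j + dy k = 0 → k = j + 3 := by decide

/-- neighbours -/
theorem dist_step (m n : ℤ) (j : Fin 6) :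
    dist (lp z u (m + dx j) (n + dy j)) (lp z u m n) = 1 := dist_lp z u m n j

theorem dist_step_next (m n : ℤ) (j : Fin 6) :
    dist (lp z u (m + dx j) (n + dy j)) (lp z u (m + dx (j + 1)) (n + dy (j + 1))) = 1 := by
  refine dist_lp_one ?_
  have := step_next j
  rw [show m + dx j - (m + dx (j + 1)) = dx j - dx (j + 1) by ring,
    show n + dy j - (n + dy (j + 1)) = dy j - dy (j + 1) by ring]; exact this

/-- two different neighbours of `x` -/
theorem step_ne {m n : ℤ} {j k : Fin 6} (h : k ≠ j) :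
    lp z u (m + dx k) (n + dy k) ≠ lp z u (m + dx j) (n + dy j) := by
  intro h1
  have h2 := lp_inj h1
  exact h (step_inj k j (by omega) (by omega))

/-- two neighbours of `x` which are not opposite -/
theorem step_line {m n : ℤ} {j k : Fin 6} (h : k ≠ j + 3) :
    lp z u (m + dx k) (n + dy k) + lp z u (m + dx j) (n + dy j) ≠ 2 * lp z u m n := by
  intro h1
  have h2 := lp_add_inj h1
  exact h (step_opp j k (by omega) (by omega))

/-! ### the families -/

/-- **notsub** -/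
theorem notsub (h : Irr U T) (m n : ℤ) (j : Fin 6) : 4 ≤ (T (lp z u m n)).ncard ∨
    ∃ i, i ∈ T (lp z u (m + dx j) (n + dy j)) ∧ i ∉ T (lp z u m n) := by
  by_cases h4 : 4 ≤ (T (lp z u m n)).ncard
  · exact Or.inl h4
  · obtain ⟨t, h1, h2⟩ := h.not_sub' (dist_step (z := z) (u := u) m n j) (by omega)
    exact Or.inr ⟨t, h1, h2⟩

/-- **third** (Lemma X): `y` a neighbour of `x`, `w` a neighbour of `y` off the line `x y`, `t` a
colour of `w` -/
theorem third (h : Irr U T) (m n : ℤ) {j k : Fin 6} (h1 : k ≠ j) (h2 : k ≠ j + 3) {t : Fin 6}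
    (ht : t ∈ T (lp z u (m + dx j + dx k) (n + dy j + dy k))) : 4 ≤ (T (lp z u m n)).ncard ∨
    ∃ i, i ≠ t ∧ i ∈ T (lp z u (m + dx j) (n + dy j)) ∧ i ∉ T (lp z u m n) := by
  by_cases h4 : 4 ≤ (T (lp z u m n)).ncard
  · exact Or.inl h4
  · refine Or.inr ?_
    by_contra hcon
    push Not at hcon
    have hsub : T (lp z u (m + dx j) (n + dy j)) ⊆ insert t (T (lp z u m n)) := by
      intro i hi
      by_cases hit : i = t
      · exact Or.inl hit
      · exact Or.inr (hcon i hit hi)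
    rcases h.lemmaX (dist_step m n j) (by omega) hsub
      (by rw [dist_comm]; exact dist_step (m + dx j) (n + dy j) k) (h.sub _ ht) with h5 | h5
    · have h6 := lp_inj h5
      exact h2 (step_opp j k (by omega) (by omega))
    · have h6 := lp_add_inj h5
      exact h1 (step_inj k j (by omega) (by omega))

/-- **lemmaB** -/
theorem lemmaB (h : Irr U T) (m n : ℤ) {j k : Fin 6} (h1 : k ≠ j) (h2 : k ≠ j + 3) {a b : Fin 6}
    (ha : a ∈ T (lp z u (m + dx j) (n + dy j))) (hb : b ∈ T (lp z u (m + dx k) (n + dy k))) :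
    ∃ i ∈ T (lp z u m n), i ≠ a ∧ i ≠ b := by
  by_contra hcon
  push Not at hcon
  have hx : T (lp z u m n) ⊆ {a, b} := by
    intro i hi
    by_cases hia : i = a
    · exact Or.inl hia
    · exact Or.inr (hcon i hi hia)
  rcases h.lemmaB hx (by rw [dist_comm]; exact dist_step m n j)
    (by rw [dist_comm]; exact dist_step m n k) (h.sub _ ha) (h.sub _ hb) with h3 | h3
  · exact step_ne h1 h3
  · exact step_line h2 h3

/-- **le1** -/
theorem le1 (h : Irr U T) (m n : ℤ) (j : Fin 6) {a : Fin 6}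
    (ha : a ∈ T (lp z u (m + dx j) (n + dy j))) : ∃ i ∈ T (lp z u m n), i ≠ a := by
  by_contra hcon
  push Not at hcon
  have hx : T (lp z u m n) ⊆ {a} := fun i hi => hcon i hi
  have h1 := dist_step (z := z) (u := u) m n j
  rw [dist_comm] at h1
  exact h.mx.notMem' (h.mem_of_single hx) h1 (h.sub _ ha)

theorem common_aux (h : Irr U T) {x y y' : ℂ} (h1 : dist y x = 1) (h2 : dist y' x = 1)
    (h3 : dist y y' = 1) (h5 : 5 ≤ (T x).ncard) {a b : Fin 6} (hab : a ≠ b) (ha : a ∈ T y)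
    (hb : b ∈ T y) (ha' : a ∈ T y') (hb' : b ∈ T y') : 4 ≤ (T y).ncard ∨ 4 ≤ (T y').ncard := by
  by_contra hcon
  push Not at hcon
  obtain ⟨c1, c2⟩ := hcon
  have c1' : (T y).ncard ≤ 3 := by omega
  have c2' : (T y').ncard ≤ 3 := by omega
  exact hab (common_le_one h h5 h1 h2 h3 c1' c2' ha ha' hb hb')

/-- **common** -/
theorem common (h : Irr U T) (m n : ℤ) (j : Fin 6) (h5 : 5 ≤ (T (lp z u m n)).ncard)
    {a b : Fin 6} (hab : a ≠ b) (ha : a ∈ T (lp z u (m + dx j) (n + dy j)))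
    (hb : b ∈ T (lp z u (m + dx j) (n + dy j)))
    (ha' : a ∈ T (lp z u (m + dx (j + 1)) (n + dy (j + 1))))
    (hb' : b ∈ T (lp z u (m + dx (j + 1)) (n + dy (j + 1)))) :
    4 ≤ (T (lp z u (m + dx j) (n + dy j))).ncard ∨
      4 ≤ (T (lp z u (m + dx (j + 1)) (n + dy (j + 1)))).ncard :=
  common_aux h (dist_step m n j) (dist_step m n (j + 1)) (dist_step_next m n j) h5 hab ha hb ha' hb'

/-! ### the same for the slots `pt x (u + j)` of an arbitrary point `x` -/

theorem lp_slot (x : ℂ) (u : ℝ) (j : Fin 6) :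
    lp x u (0 + dx j) (0 + dy j) = pt x (u + (j.val : ℝ)) := by
  rw [← lp_step, lp_zero]

theorem lp_slot2 (x : ℂ) (u : ℝ) (j k : Fin 6) :
    lp x u (0 + dx j + dx k) (0 + dy j + dy k) =
      pt (pt x (u + (j.val : ℝ))) (u + (k.val : ℝ)) := by
  rw [← lp_step, lp_slot]

theorem notsub_pt (h : Irr U T) (x : ℂ) (s : ℝ) : 4 ≤ (T x).ncard ∨
    ∃ i, i ∈ T (pt x s) ∧ i ∉ T x := by
  by_cases h4 : 4 ≤ (T x).ncard
  · exact Or.inl h4
  · exact Or.inr (h.not_sub' (dist_pt x s) (by omega))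

theorem third_pt (h : Irr U T) (x : ℂ) (u : ℝ) {j k : Fin 6} (h1 : k ≠ j) (h2 : k ≠ j + 3)
    {t : Fin 6} (ht : t ∈ T (pt (pt x (u + (j.val : ℝ))) (u + (k.val : ℝ)))) :
    4 ≤ (T x).ncard ∨ ∃ i, i ≠ t ∧ i ∈ T (pt x (u + (j.val : ℝ))) ∧ i ∉ T x := by
  have h3 := third (z := x) (u := u) h 0 0 h1 h2 (t := t) (by rw [lp_slot2]; exact ht)
  rwa [lp_slot, lp_zero] at h3

theorem lemmaB_pt (h : Irr U T) (x : ℂ) (u : ℝ) {j k : Fin 6} (h1 : k ≠ j) (h2 : k ≠ j + 3)
    {a b : Fin 6} (ha : a ∈ T (pt x (u + (j.val : ℝ)))) (hb : b ∈ T (pt x (u + (k.val : ℝ)))) :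
    ∃ i ∈ T x, i ≠ a ∧ i ≠ b := by
  have h3 := lemmaB (z := x) (u := u) h 0 0 h1 h2 (a := a) (b := b) (by rw [lp_slot]; exact ha)
    (by rw [lp_slot]; exact hb)
  rwa [lp_zero] at h3

theorem le1_pt (h : Irr U T) (x : ℂ) (s : ℝ) {a : Fin 6} (ha : a ∈ T (pt x s)) :
    ∃ i ∈ T x, i ≠ a := by
  by_contra hcon
  push Not at hcon
  have hx : T x ⊆ {a} := fun i hi => hcon i hi
  have h1 := dist_pt x s
  rw [dist_comm] at h1
  exact h.mx.notMem' (h.mem_of_single hx) h1 (h.sub _ ha)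

end Vale.Agent.P032.H617
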