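import Vale.Agent.P032.H617.WK

/-!
# P032: the partner rule (XC) at the slots of `z` for any number of times

`WX` : at every slot `y` of `z` some colour of `T y` occurs outside (inside) the disc of `z` near `y`
and is in neither of the letters of `S(z)` at the two neighbouring slots (taken before / after).
-/

open Set Filter Topology Metric

noncomputable section

namespace Vale.Agent.P032.H617

open Vale.Agent.P032.Six Vale.Agent.P032.Sweep Vale.Agent.P032.S5.H767 Vale.Agent.P032.S5.H122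
  Vale.Agent.P032.H158 Vale.Agent.P032.H782 Vale.Agent.P032.H429 Vale.Agent.P032.H437
  Vale.Agent.P032.H187 Vale.Agent.P032.H989 Vale.Agent.P032.H266

section

variable {U : Fin 6 → Set ℂ} {T : ℂ → Set (Fin 6)} {u : ℝ} {F : Bool → Ultrafilter ℝ}
  {σ : Bool} {z : ℂ}

/-- the limit palette is carried by the circle -/
theorem carried_lt (hf : Fr U T u F) (σ : Bool) (z : ℂ) (k : ℝ) :
    ∀ᶠ v in (F σ : Filter ℝ), pt z (v + k) ∈ Cr U z (lt (F σ) T z k) := by
  have h1 : ∀ᶠ v in (F σ : Filter ℝ), v + k ∈ Lc T z := hf.lc σ z k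
  filter_upwards [h1, lt_spec (F σ) T z k] with v hv he
  refine Cr_of_T hf.irr (dist_pt158 z _) ((Lc_circle hv).mono fun q hq => ?_)
  rw [← he]
  exact hq.ge

theorem freq_left_slot (hf : Fr U T u F) (z : ℂ) (k : ℝ) :
    ∃ᶠ v in 𝓝[<] (u + k), pt z v ∈ Cr U z (lt (F false) T z k) :=
  freq_add (l := fun u => 𝓝[<] u) (Or.inl rfl)
    ((carried_lt hf false z k).frequently.filter_mono hf.left)

theorem freq_right_slot (hf : Fr U T u F) (z : ℂ) (k : ℝ) :
    ∃ᶠ v in 𝓝[>] (u + k), pt z v ∈ Cr U z (lt (F true) T z k) :=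
  freq_add (l := fun u => 𝓝[>] u) (Or.inr rfl)
    ((carried_lt hf true z k).frequently.filter_mono hf.right)

theorem freq_slot (hf : Fr U T u F) (σ : Bool) (z : ℂ) (k : ℝ) :
    ∃ᶠ v in 𝓝 (u + k), pt z v ∈ Cr U z (lt (F σ) T z k) := by
  cases σ
  · exact nhds_of_left (freq_left_slot hf z k)
  · exact nhds_of_right (freq_right_slot hf z k)

theorem lt_next (F : Ultrafilter ℝ) (T : ℂ → Set (Fin 6)) (z : ℂ) (k : Fin 6) :
    lt F T z ((k + 1 : Fin 6).val : ℝ) = lt F T z ((k.val : ℝ) + 1) := by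
  unfold H437.lt
  ext i
  simp only [mem_setOf_eq]
  refine eventually_congr (Eventually.of_forall fun v => ?_)
  rw [(pt_slot z v k).1, add_assoc]

theorem lt_prev (F : Ultrafilter ℝ) (T : ℂ → Set (Fin 6)) (z : ℂ) (k : Fin 6) :
    lt F T z ((k - 1 : Fin 6).val : ℝ) = lt F T z ((k.val : ℝ) - 1) := by
  unfold H437.lt
  ext i
  simp only [mem_setOf_eq]
  refine eventually_congr (Eventually.of_forall fun v => ?_)
  rw [(pt_slot z v k).2, add_sub_assoc]

/-- the sides of the pairs for the outer rule: not (next one after, previous one before) -/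
def okO (a b : Bool) : Bool := !a || b

/-- the inner rule: not (next one before, previous one after) -/
def okI (a b : Bool) : Bool := a || !b

theorem xo_fr (hf : Fr U T u F) (z : ℂ) (k : Fin 6) {a b : Bool} (h : okO a b = true) :
    ∃ i ∈ T (pt z (u + (k.val : ℝ))), i ∉ lt (F a) T z ((k + 1 : Fin 6).val : ℝ) ∧
      i ∉ lt (F b) T z ((k - 1 : Fin 6).val : ℝ) ∧ OutN U z (pt z (u + (k.val : ℝ))) i := by
  rw [lt_next, lt_prev]
  have e1 : ∀ v : ℝ, v + (k.val : ℝ) + 1 = v + ((k.val : ℝ) + 1) := fun v => by ring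
  have e2 : ∀ v : ℝ, v + (k.val : ℝ) - 1 = v + ((k.val : ℝ) - 1) := fun v => by ring
  cases a
  · refine xc_out_before hf.irr ?_ ?_
    · rw [e1]; exact freq_left_slot hf z _
    · rw [e2]; exact freq_slot hf b z _
  · cases b
    · exact absurd h (by decide)
    · refine xc_out_after hf.irr ?_ ?_
      · rw [e1]; exact freq_slot hf true z _
      · rw [e2]; exact freq_right_slot hf z _

theorem xi_fr (hf : Fr U T u F) (z : ℂ) (k : Fin 6) {a b : Bool} (h : okI a b = true) :
    ∃ i ∈ T (pt z (u + (k.val : ℝ))), i ∉ lt (F a) T z ((k + 1 : Fin 6).val : ℝ) ∧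
      i ∉ lt (F b) T z ((k - 1 : Fin 6).val : ℝ) ∧ InnN U z (pt z (u + (k.val : ℝ))) i := by
  rw [lt_next, lt_prev]
  have e1 : ∀ v : ℝ, v + (k.val : ℝ) + 1 = v + ((k.val : ℝ) + 1) := fun v => by ring
  have e2 : ∀ v : ℝ, v + (k.val : ℝ) - 1 = v + ((k.val : ℝ) - 1) := fun v => by ring
  cases a
  · cases b
    · refine xc_inn_before hf.irr ?_ ?_
      · rw [e1]; exact freq_slot hf false z _
      · rw [e2]; exact freq_left_slot hf z _
    · exact absurd h (by decide)
  · refine xc_inn_after hf.irr ?_ ?_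
    · rw [e1]; exact freq_right_slot hf z _
    · rw [e2]; exact freq_slot hf b z _

end

/-- **the partner rule at the slots of the centre** -/
structure WX {K : ℕ} (TT : QK K → Fin 6 → Prop) (LT : Fin K → Bool → QK K → Fin 6 → Fin 6 → Prop)
    (IC OC : Fin K → Fin 6 → Fin 6 → Prop) : Prop where
  xo : ∀ (c : Fin K) (k : Fin 6) {a b : Bool}, okO a b = true → ∃ i, TT (stK c (q0 K) k) i ∧
    OC c k i ∧ ¬ LT c a (q0 K) (k + 1) i ∧ ¬ LT c b (q0 K) (k - 1) i
  xi : ∀ (c : Fin K) (k : Fin 6) {a b : Bool}, okI a b = true → ∃ i, TT (stK c (q0 K) k) i ∧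
    IC c k i ∧ ¬ LT c a (q0 K) (k + 1) i ∧ ¬ LT c b (q0 K) (k - 1) i

/-- **The instance** -/
theorem wx_of_frK {U : Fin 6 → Set ℂ} {T : ℂ → Set (Fin 6)} {K : ℕ} {uu : Fin K → ℝ}
    {FF : Fin K → Bool → Ultrafilter ℝ} (h : FrK U T uu FF) (z : ℂ) :
    WX (TK T z uu) (LK T z uu FF) (ICK U z uu) (OCK U z uu) where
  xo := by
    intro c k a b hab
    obtain ⟨i, h1, h2, h3, h4⟩ := xo_fr (h.fr c) z k hab
    refine ⟨i, ?_, h4, ?_, ?_⟩
    · unfold TK; rw [← lK_step, lK_q0]; exact h1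
    · unfold LK; rw [lK_q0]; exact h2
    · unfold LK; rw [lK_q0]; exact h3
  xi := by
    intro c k a b hab
    obtain ⟨i, h1, h2, h3, h4⟩ := xi_fr (h.fr c) z k hab
    refine ⟨i, ?_, h4, ?_, ?_⟩
    · unfold TK; rw [← lK_step, lK_q0]; exact h1
    · unfold LK; rw [lK_q0]; exact h2
    · unfold LK; rw [lK_q0]; exact h3

end Vale.Agent.P032.H617
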